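import Vale.Agent.Lib.P064E.Facts

/-!
Part T1: the number of maps of an in-forest onto a fixed vertex set.
-/

open Finset

namespace Vale.Agent.Lib.P064E

open Vale.Agent.Lib.P064
open scoped Classical

variable {V α : Type} [Fintype V] [Fintype α] {H : SimpleGraph V} {n : ℕ} {q l lam : ℝ}

/-- A count through a factorisation: if `a` factors through `b` on `S`, and `b` maps `S` into `D`,
then the image of `a` has at most `|D|` elements. -/
lemma card_image_le_of_factor {X Y Z : Type} [DecidableEq Y] (S : Finset X) (a : X → Y) (b : X → Z) (D : Finset Z)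
    (h : ∀ x ∈ S, ∀ x' ∈ S, b x = b x' → a x = a x') (hD : ∀ x ∈ S, b x ∈ D) :
    (S.image a).card ≤ D.card := by
  rcases S.eq_empty_or_nonempty with rfl | ⟨x₀, hx₀⟩
  · simp
  have : Nonempty X := ⟨x₀⟩
  refine Finset.card_le_card_of_injOn (fun y => b (Function.invFunOn a (S : Set X) y)) ?_ ?_
  · intro y hy
    obtain ⟨x, hx, rfl⟩ := Finset.mem_image.1 (Finset.mem_coe.1 hy)
    have hm : Function.invFunOn a (S : Set X) (a x) ∈ (S : Set X) :=
      Function.invFunOn_mem ⟨x, Finset.mem_coe.2 hx, rfl⟩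
    exact hD _ (Finset.mem_coe.1 hm)
  · intro y hy y' hy' hyy
    obtain ⟨x, hx, rfl⟩ := Finset.mem_image.1 (Finset.mem_coe.1 hy)
    obtain ⟨x', hx', rfl⟩ := Finset.mem_image.1 (Finset.mem_coe.1 hy')
    have hm : Function.invFunOn a (S : Set X) (a x) ∈ (S : Set X) :=
      Function.invFunOn_mem ⟨x, Finset.mem_coe.2 hx, rfl⟩
    have hm' : Function.invFunOn a (S : Set X) (a x') ∈ (S : Set X) :=
      Function.invFunOn_mem ⟨x', Finset.mem_coe.2 hx', rfl⟩
    have he : a (Function.invFunOn a (S : Set X) (a x)) = a x :=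
      Function.invFunOn_eq ⟨x, Finset.mem_coe.2 hx, rfl⟩
    have he' : a (Function.invFunOn a (S : Set X) (a x')) = a x' :=
      Function.invFunOn_eq ⟨x', Finset.mem_coe.2 hx', rfl⟩
    have h2 := h _ (Finset.mem_coe.1 hm) _ (Finset.mem_coe.1 hm') hyy
    rw [he, he'] at h2
    exact h2

/-- The successor function of `f`: `f x ↦ f (p x)` on the image of `Q₀`. -/
noncomputable def succF (Q₀ : Finset α) (p : α → α) (f : α → V) (w : V) : V :=
  if h : ∃ x ∈ Q₀, f x = w then f (p h.choose) else w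

lemma succF_apply {Q₀ : Finset α} {p : α → α} {f : α → V} (hf : Set.InjOn f Q₀) {x : α}
    (hx : x ∈ Q₀) : succF Q₀ p f (f x) = f (p x) := by
  have h : ∃ y ∈ Q₀, f y = f x := ⟨x, hx, rfl⟩
  unfold succF
  rw [dif_pos h]
  have h1 := h.choose_spec
  have h2 : h.choose = x := hf (Finset.mem_coe.2 h1.1) (Finset.mem_coe.2 hx) h1.2
  rw [h2]

/-- Maps injective on `Q₀`, with image `W₀`, sending `x, p x` to an edge of `T` for non-roots:
such a map is determined by its values on `Lf` and by its successor function on `W₀`, so the number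
of restrictions is at most `|W₀|^|Lf| ∏_{w ∈ W₀} (deg_T w + 1)`. -/
theorem tree_count {Q₀ Lf : Finset α} {p : α → α}
    (hclosed : ∀ x ∈ Q₀, p x ∈ Q₀) (hlf : Lf ⊆ Q₀)
    (hreach : ∀ T : Finset α, Lf ⊆ T → (∀ x ∈ T, x ∈ Q₀ → p x ∈ T) → Q₀ ⊆ T)
    (W₀ : Finset V) (T : Finset (Sym2 V)) (𝓕 : Finset (α → V))
    (hinj : ∀ f ∈ 𝓕, Set.InjOn f Q₀) (him : ∀ f ∈ 𝓕, Q₀.image f = W₀)
    (hedge : ∀ f ∈ 𝓕, ∀ x ∈ Q₀, p x ≠ x → s(f x, f (p x)) ∈ T) :
    ((𝓕.image (proj Q₀)).card : ℝ) ≤
      (W₀.card : ℝ) ^ Lf.card * ∏ w ∈ W₀, (((W₀.filter fun w' => s(w, w') ∈ T).card : ℝ) + 1) := by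
  classical
  let D₁ : Finset ((x : α) → x ∈ Lf → V) := Lf.pi (fun _ => W₀)
  let D₂ : Finset ((w : V) → w ∈ W₀ → V) :=
    W₀.pi (fun w => insert w (W₀.filter fun w' => s(w, w') ∈ T))
  let b : (α → V) → ((x : α) → x ∈ Lf → V) × ((w : V) → w ∈ W₀ → V) :=
    fun f => (fun x _ => f x, fun w _ => succF Q₀ p f w)
  have hcount : (𝓕.image (proj Q₀)).card ≤ (D₁ ×ˢ D₂).card := by
    refine card_image_le_of_factor 𝓕 (proj Q₀) b (D₁ ×ˢ D₂) ?_ ?_
    · intro f hf f' hf' hb
      have h1 : ∀ x ∈ Lf, f x = f' x := fun x hx =>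
        congrFun (congrFun (congrArg Prod.fst hb) x) hx
      have h2 : ∀ w ∈ W₀, succF Q₀ p f w = succF Q₀ p f' w := fun w hw =>
        congrFun (congrFun (congrArg Prod.snd hb) w) hw
      have hsub : Q₀ ⊆ Q₀.filter (fun x => f x = f' x) := by
        refine hreach _ ?_ ?_
        · intro x hx
          exact Finset.mem_filter.2 ⟨hlf hx, h1 x hx⟩
        · intro x hx hxQ
          have hxe := (Finset.mem_filter.1 hx).2
          refine Finset.mem_filter.2 ⟨hclosed x hxQ, ?_⟩
          have hw : f x ∈ W₀ := by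
            rw [← him f hf]
            exact Finset.mem_image_of_mem _ hxQ
          have h3 := h2 (f x) hw
          rw [succF_apply (hinj f hf) hxQ] at h3
          rw [h3]
          conv_lhs => rw [hxe]
          exact succF_apply (hinj f' hf') hxQ
      funext x
      unfold proj
      by_cases hx : x ∈ Q₀
      · rw [if_pos hx, if_pos hx, (Finset.mem_filter.1 (hsub hx)).2]
      · rw [if_neg hx, if_neg hx]
    · intro f hf
      refine Finset.mem_product.2 ⟨Finset.mem_pi.2 ?_, Finset.mem_pi.2 ?_⟩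
      · intro x hx
        change f x ∈ W₀
        rw [← him f hf]
        exact Finset.mem_image_of_mem _ (hlf hx)
      · intro w hw
        change succF Q₀ p f w ∈ insert w (W₀.filter fun w' => s(w, w') ∈ T)
        have hw' := hw
        rw [← him f hf] at hw'
        obtain ⟨x, hx, rfl⟩ := Finset.mem_image.1 hw'
        rw [succF_apply (hinj f hf) hx]
        by_cases hp : p x = x
        · rw [hp]
          exact Finset.mem_insert_self _ _
        · refine Finset.mem_insert_of_mem (Finset.mem_filter.2 ⟨?_, hedge f hf x hx hp⟩)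
          rw [← him f hf]
          exact Finset.mem_image_of_mem _ (hclosed x hx)
  have hD : (D₁ ×ˢ D₂).card = W₀.card ^ Lf.card *
      ∏ w ∈ W₀, (insert w (W₀.filter fun w' => s(w, w') ∈ T)).card := by
    rw [Finset.card_product, Finset.card_pi, Finset.card_pi, Finset.prod_const]
  have h1 : ((𝓕.image (proj Q₀)).card : ℝ) ≤ ((W₀.card ^ Lf.card *
      ∏ w ∈ W₀, (insert w (W₀.filter fun w' => s(w, w') ∈ T)).card : ℕ) : ℝ) := by
    rw [← hD]
    exact_mod_cast hcount
  refine h1.trans ?_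
  push_cast
  apply mul_le_mul_of_nonneg_left _ (by positivity)
  refine Finset.prod_le_prod (fun _ _ => by positivity) ?_
  intro w _
  exact_mod_cast Finset.card_insert_le _ _

end Vale.Agent.Lib.P064E
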