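import Vale.Agent.Lib.P064E.Union2
import Vale.Agent.Lib.P064E.Tree1

/-!
Part F1: the cover count and the maximal family, for one block.
-/

open Finset

namespace Vale.Agent.Lib.P064E

open Vale.Agent.Lib.P064
open scoped Classical

variable {V α : Type} [Fintype V] [Fintype α] {F : SimpleGraph α} {H : SimpleGraph V} {n : ℕ}
  {q l lam : ℝ} {K C : Finset α}

/-- The ordered pairs over a set of edges: at most twice as many. -/
lemma card_ordered_le (U : Finset (Sym2 V)) :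
    (((vs U) ×ˢ (vs U)).filter (fun d : V × V => s(d.1, d.2) ∈ U)).card ≤ 2 * U.card := by
  have h1 := Finset.card_le_mul_card_image (f := fun d : V × V => s(d.1, d.2))
    (((vs U) ×ˢ (vs U)).filter (fun d : V × V => s(d.1, d.2) ∈ U)) 2 ?_
  · refine h1.trans (Nat.mul_le_mul_left _ (Finset.card_le_card ?_))
    intro e he
    obtain ⟨d, hd, rfl⟩ := Finset.mem_image.1 he
    exact (Finset.mem_filter.1 hd).2
  · intro e he
    obtain ⟨⟨u, v⟩, _, rfl⟩ := Finset.mem_image.1 he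
    have : (((vs U) ×ˢ (vs U)).filter (fun d : V × V => s(d.1, d.2) ∈ U)).filter
        (fun d => s(d.1, d.2) = s(u, v)) ⊆ {(u, v), (v, u)} := by
      intro d hd
      obtain ⟨_, h2⟩ := Finset.mem_filter.1 hd
      rcases Sym2.eq_iff.1 h2 with ⟨h3, h4⟩ | ⟨h3, h4⟩
      · exact Finset.mem_insert.2 (Or.inl (Prod.ext h3 h4))
      · exact Finset.mem_insert_of_mem (Finset.mem_singleton.2 (Prod.ext h3 h4))
    exact (Finset.card_le_card this).trans Finset.card_le_two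

lemma mem_vs_of_mem {U : Finset (Sym2 V)} {e : Sym2 V} (he : e ∈ U) {x : V} (hx : x ∈ e) :
    x ∈ vs U := by
  unfold vs
  exact Finset.mem_biUnion.2 ⟨e, he, Sym2.mem_toFinset.2 hx⟩

/-- Every `φ` maps the edges touching `C` into `U`, and `C` has an inner edge and at least two vertices:
at most `(2|U|)^(b-1)` restrictions. -/
theorem cover_bound (hb : MinBlock F l lam K C) (h2 : 2 ≤ C.card)
    (S : Finset (α → V)) (hemb : ∀ φ ∈ S, IsEmb F H φ)
    (U : Finset (Sym2 V)) (hU : ∀ φ ∈ S, tchIm F K C φ ⊆ U) :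
    ((S.image (proj C)).card : ℝ) ≤ (2 * (U.card : ℝ)) ^ (C.card - 1) := by
  obtain ⟨x₀, hx₀⟩ := hb.ne
  obtain ⟨y₀, hy₀, hxy⟩ := hb.exists_inner h2 hx₀
  have hne : x₀ ≠ y₀ := hxy.ne
  have hCK := hb.sub
  set R : Finset α := (C.erase x₀).erase y₀ with hR
  have hRcard : R.card = C.card - 2 := by
    rw [hR, Finset.card_erase_of_mem (Finset.mem_erase.2 ⟨hne.symm, hy₀⟩),
      Finset.card_erase_of_mem hx₀]
    omega
  set W : Finset V := vs U with hW
  set D : Finset (V × V) := (W ×ˢ W).filter (fun d : V × V => s(d.1, d.2) ∈ U) with hD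
  have hedge : ∀ φ ∈ S, ∀ u v : α, F.Adj u v → u ∈ C → v ∈ K → s(φ u, φ v) ∈ U := by
    intro φ hφ u v huv hu hv
    apply hU φ hφ
    refine Finset.mem_image.2 ⟨s(u, v), (mem_tch_pair hCK).2 ⟨huv, hCK hu, hv, Or.inl hu⟩, ?_⟩
    simp only [Sym2.map_mk]
  have hcard : (S.image (proj C)).card ≤
      (D ×ˢ Fintype.piFinset (fun _ : ↥R => W)).card := by
    refine card_image_le_of_factor S (proj C)
      (fun φ => ((φ x₀, φ y₀), fun r : ↥R => φ r)) _ ?_ ?_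
    · intro φ _ φ' _ hb'
      have h1 : φ x₀ = φ' x₀ := congrArg (fun t => t.1.1) hb'
      have h3 : φ y₀ = φ' y₀ := congrArg (fun t => t.1.2) hb'
      have h4 : ∀ r : ↥R, φ r = φ' r := fun r => congrFun (congrArg (fun t => t.2) hb') r
      funext x
      unfold proj
      by_cases hx : x ∈ C
      · rw [if_pos hx, if_pos hx]
        by_cases hxx : x = x₀
        · rw [hxx, h1]
        by_cases hxy' : x = y₀
        · rw [hxy', h3]
        have hxR : x ∈ R := Finset.mem_erase.2 ⟨hxy', Finset.mem_erase.2 ⟨hxx, hx⟩⟩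
        rw [h4 ⟨x, hxR⟩]
      · rw [if_neg hx, if_neg hx]
    · intro φ hφ
      have hmem : ∀ u v : α, F.Adj u v → u ∈ C → v ∈ K → φ u ∈ W := by
        intro u v huv hu hv
        exact mem_vs_of_mem (hedge φ hφ u v huv hu hv) (Sym2.mem_mk_left _ _)
      refine Finset.mem_product.2 ⟨?_, ?_⟩
      · refine Finset.mem_filter.2 ⟨Finset.mem_product.2 ⟨?_, ?_⟩, hedge φ hφ x₀ y₀ hxy hx₀ (hCK hy₀)⟩
        · exact hmem x₀ y₀ hxy hx₀ (hCK hy₀)
        · exact hmem y₀ x₀ hxy.symm hy₀ (hCK hx₀)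
      · refine Fintype.mem_piFinset.2 ?_
        intro r
        have hrC : (r : α) ∈ C := (Finset.mem_erase.1 (Finset.mem_erase.1 r.2).2).2
        obtain ⟨z, hz, hrz⟩ := hb.exists_inner h2 hrC
        exact hmem r z hrz hrC (hCK hz)
  have hprod : (D ×ˢ Fintype.piFinset (fun _ : ↥R => W)).card = D.card * W.card ^ R.card := by
    rw [Finset.card_product, Fintype.card_piFinset]
    simp
  have hDle : D.card ≤ 2 * U.card := card_ordered_le U
  have hWle : W.card ≤ 2 * U.card := vs_card_le U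
  have hfin : (S.image (proj C)).card ≤ (2 * U.card) ^ (C.card - 1) := by
    have hexp : C.card - 1 = R.card + 1 := by omega
    rw [hexp, pow_succ']
    calc (S.image (proj C)).card ≤ D.card * W.card ^ R.card := by rw [← hprod]; exact hcard
      _ ≤ 2 * U.card * (2 * U.card) ^ R.card :=
          Nat.mul_le_mul hDle (Nat.pow_le_pow_left hWle _)
  have := (Nat.cast_le (α := ℝ)).2 hfin
  push_cast at this
  exact this

/-- The restrictions to `K` of a family agreeing on `K \ C` number at most those to `C`. -/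
lemma card_image_proj_K_le (hCK : C ⊆ K) (S : Finset (α → V))
    (hag : ∀ φ ∈ S, ∀ φ' ∈ S, ∀ x ∈ K \ C, φ x = φ' x) :
    (S.image (proj K)).card ≤ (S.image (proj C)).card := by
  refine card_image_le_of_factor S (proj K) (proj C) _ ?_ ?_
  · intro φ hφ φ' hφ' h
    funext x
    unfold proj
    by_cases hx : x ∈ K
    · rw [if_pos hx, if_pos hx]
      by_cases hxC : x ∈ C
      · rw [proj_eq_apply hxC h]
      · rw [hag φ hφ φ' hφ' x (Finset.mem_sdiff.2 ⟨hx, hxC⟩)]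
    · rw [if_neg hx, if_neg hx]
  · intro φ hφ
    exact Finset.mem_image_of_mem _ hφ

/-- The number of restrictions to `C` is at most `|𝓜| max_{φ₁ ∈ 𝓜} |restrictions of lifts overlapping φ₁|`. -/
lemma card_le_sum_overlap (S 𝓜 : Finset (α → V)) (hcov : ∀ φ ∈ S, ∃ x ∈ C, ∃ φ' ∈ 𝓜, ∃ y ∈ C, φ x = φ' y)
    {N : ℝ} (hN0 : 0 ≤ N)
    (hN : ∀ φ₁ ∈ 𝓜, (((S.filter fun φ => ∃ x ∈ C, ∃ y ∈ C, φ x = φ₁ y).image (proj C)).card : ℝ) ≤ N) :
    ((S.image (proj C)).card : ℝ) ≤ (𝓜.card : ℝ) * N := by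
  have hsub : S.image (proj C) ⊆
      𝓜.biUnion (fun φ₁ => (S.filter fun φ => ∃ x ∈ C, ∃ y ∈ C, φ x = φ₁ y).image (proj C)) := by
    intro ψ hψ
    obtain ⟨φ, hφ, rfl⟩ := Finset.mem_image.1 hψ
    obtain ⟨x, hx, φ', hφ', y, hy, hxy⟩ := hcov φ hφ
    exact Finset.mem_biUnion.2 ⟨φ', hφ', Finset.mem_image_of_mem _
      (Finset.mem_filter.2 ⟨hφ, x, hx, y, hy, hxy⟩)⟩
  have h1 := (Finset.card_le_card hsub).trans Finset.card_biUnion_le
  have h2 : ((S.image (proj C)).card : ℝ) ≤ ∑ φ₁ ∈ 𝓜,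
      (((S.filter fun φ => ∃ x ∈ C, ∃ y ∈ C, φ x = φ₁ y).image (proj C)).card : ℝ) := by
    exact_mod_cast h1
  have h3 : ∑ φ₁ ∈ 𝓜,
      (((S.filter fun φ => ∃ x ∈ C, ∃ y ∈ C, φ x = φ₁ y).image (proj C)).card : ℝ) ≤
      ∑ _φ₁ ∈ 𝓜, N := Finset.sum_le_sum hN
  rw [Finset.sum_const, nsmul_eq_mul] at h3
  linarith

/-- The dichotomy for a family pairwise disjoint on `C` agreeing on `K \ C`, from `sun_factorial` and `t_bound`:
`t ≤ |att| l` or `t ≤ e^2 x`, `x = n^b q^m`, when `m ≥ 1`. -/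
theorem family_dichotomy (hG : GoodDensity n q H) (hs : Std n q l lam) (hCK : C ⊆ K) (hCne : C.Nonempty)
    (hm : 1 ≤ (tch F K C).card)
    (𝓜 : Finset (α → V)) (h𝓜 : 𝓜.Nonempty) (hemb : ∀ φ ∈ 𝓜, IsEmb F H φ)
    (hag : ∀ φ ∈ 𝓜, ∀ φ' ∈ 𝓜, ∀ x ∈ K \ C, φ x = φ' x)
    (hdisj : ∀ φ ∈ 𝓜, ∀ φ' ∈ 𝓜, φ ≠ φ' → ∀ x ∈ C, ∀ y ∈ C, φ x ≠ φ' y) :
    (𝓜.card : ℝ) ≤ ((att F K C).card : ℝ) * l ∨
      (𝓜.card : ℝ) ≤ Real.exp 2 * ((n : ℝ) ^ C.card * q ^ (tch F K C).card) := by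
  obtain ⟨φ₀, hφ₀⟩ := h𝓜
  have hq0 := hs.q0
  have hn1 : (1 : ℝ) ≤ n := by exact_mod_cast hs.n1
  have hn0 : (0 : ℝ) < n := by linarith
  have hfac := sun_factorial hG hq0 hs.q1 (E := K \ C) hCne Finset.disjoint_sdiff 𝓜 hφ₀
    (fun φ hφ => (hemb φ hφ).1) (fun φ hφ => (hemb φ hφ).2)
    (fun φ hφ x hx => hag φ hφ φ₀ hφ₀ x hx) hdisj hm
  have ht1 : 1 ≤ 𝓜.card := Finset.card_pos.2 ⟨φ₀, hφ₀⟩
  have hρ : 0 < (n : ℝ) ^ C.card * q ^ (newE F (K \ C) C).card := by positivity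
  have := t_bound hn1 hρ ht1 hfac
  rcases this with h | h
  · left
    rw [hs.l_eq]
    exact h
  · right
    exact h

end Vale.Agent.Lib.P064E
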