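import Vale.Agent.Lib.P064E.LevelTop
import Vale.Agent.Lib.P064E.Cover

/-!
Definitions for the bound for one block.
-/

open Finset

namespace Vale.Agent.Lib.P064E

open Vale.Agent.Lib.P064
open scoped Classical

variable {V α : Type} [Fintype V] [Fintype α] {F : SimpleGraph α} {H : SimpleGraph V} {n : ℕ}
  {q l lam δ : ℝ} {b₁ : ℕ} {K C : Finset α}

/-- The per-edge factor: `b₁` is the size threshold, `A = (1 + δ) lam / l` the exponent. -/
noncomputable def Lam (b₁ : ℕ) (l lam δ : ℝ) : ℝ :=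
  Real.exp 20 * (b₁.factorial : ℝ) ^ 2 * baseB l ^ ((1 + δ) * lam / l)

/-- The bound to be multiplied along the chain: for a family agreeing on `K \ C`. -/
def BlockGoal (F : SimpleGraph α) (H : SimpleGraph V) (n : ℕ) (q Λ : ℝ) (K C : Finset α) : Prop :=
  ∀ S : Finset (α → V), (∀ φ ∈ S, IsEmb F H φ) → (∀ φ ∈ S, ∀ φ' ∈ S, ∀ x ∈ K \ C, φ x = φ' x) →
    ((S.image (proj K)).card : ℝ) ≤ ((n : ℝ) ^ C.card * q ^ (tch F K C).card) * Λ ^ (tch F K C).card

/-- Numeric hypotheses on `δ, b₁, l`. -/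
structure BlockNum (b₁ : ℕ) (l δ : ℝ) : Prop where
  δ0 : 0 < δ
  δ1 : δ ≤ 1
  b₁2 : 2 ≤ b₁
  b₁δ : 2 ≤ δ * ((b₁ : ℝ) - 1)
  small : Real.log ((1 + Real.log l) * l) * (1 + δ) ≤ δ * l

end Vale.Agent.Lib.P064E
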