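import Vale.Agent.Lib.P064E.BlockDefs

/-!
Part B3: blocks with at least `b₁` vertices.
-/

open Finset

namespace Vale.Agent.Lib.P064E

open Vale.Agent.Lib.P064
open scoped Classical

variable {V α : Type} [Fintype V] [Fintype α] {F : SimpleGraph α} {H : SimpleGraph V} {n : ℕ}
  {q l lam δ : ℝ} {b₁ : ℕ} {K C : Finset α}

/-- At least `b₁` vertices. -/
theorem block_large (hG : GoodDensity n q H) (hs : Std n q l lam) (hnum : BlockNum b₁ l δ)
    (hV : Fintype.card V ≤ n) (hb : MinBlock F l lam K C) (h2 : 2 ≤ C.card) (hb₁ : b₁ ≤ C.card) :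
    BlockGoal F H n q (Lam b₁ l lam δ) K C := by
  sorry

end Vale.Agent.Lib.P064E
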