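import Vale.Agent.Lib.P064E.BlockDefs

/-!
Part B1: blocks with one vertex.
-/

open Finset

namespace Vale.Agent.Lib.P064E

open Vale.Agent.Lib.P064
open scoped Classical

variable {V α : Type} [Fintype V] [Fintype α] {F : SimpleGraph α} {H : SimpleGraph V} {n : ℕ}
  {q l lam δ : ℝ} {b₁ : ℕ} {K C : Finset α}

/-- `m = 0`: one vertex, at most `n` images. -/
theorem block_m_zero (hs : Std n q l lam) (hV : Fintype.card V ≤ n) (hb : MinBlock F l lam K C)
    (hm : (tch F K C).card = 0) {Λ : ℝ} : BlockGoal F H n q Λ K C := by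
  sorry

/-- One vertex, with `m ≥ 1` edges. -/
theorem block_single (hG : GoodDensity n q H) (hs : Std n q l lam) (hnum : BlockNum b₁ l δ)
    (hb : MinBlock F l lam K C) (h1 : C.card = 1) (hm : 1 ≤ (tch F K C).card) :
    BlockGoal F H n q (Lam b₁ l lam δ) K C := by
  sorry

end Vale.Agent.Lib.P064E
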