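import Vale.Agent.Lib.P064E.Facts

/-!
Part G (generic form): the chain of minimal blocks, for any per-edge factor given on all blocks.
-/

open Finset

namespace Vale.Agent.Lib.P064E

open Vale.Agent.Lib.P064
open scoped Classical

variable {V α : Type} [Fintype V] [Fintype α] {F : SimpleGraph α} {H : SimpleGraph V} {n : ℕ}
  {q l lam Λ : ℝ}

/-- The bound per block, as in `BlockDefs`: the same statement written out. -/
def BlockGoalG (F : SimpleGraph α) (H : SimpleGraph V) (n : ℕ) (q Λ : ℝ) (K C : Finset α) : Prop :=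
  ∀ S : Finset (α → V), (∀ φ ∈ S, IsEmb F H φ) → (∀ φ ∈ S, ∀ φ' ∈ S, ∀ x ∈ K \ C, φ x = φ' x) →
    ((S.image (proj K)).card : ℝ) ≤ ((n : ℝ) ^ C.card * q ^ (tch F K C).card) * Λ ^ (tch F K C).card

lemma tch_self_card (K : Finset α) : (tch F K K).card = (eIn F K).card := by
  unfold tch
  have h := eIn_union_card (F := F) (E := K \ K) (C := K)
  simp only [Finset.sdiff_self, Finset.bot_eq_empty, Finset.empty_union] at h ⊢
  rw [eIn_empty] at h
  simpa using h.symm

/-- The value of `K` is nonnegative when `K` carries an embedding. -/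
lemma sv_self_nonneg (hG : GoodDensity n q H) (hs : Std n q l lam) {K : Finset α} {φ : α → V}
    (hφ : IsEmb F H φ) : 0 ≤ sv F l lam K K := by
  unfold sv
  rw [tch_self_card]
  set T : Finset (Sym2 V) := (eIn F K).image (Sym2.map φ) with hT
  have hinj : Function.Injective (Sym2.map φ) := Sym2.map.injective hφ.1
  have hTcard : T.card = (eIn F K).card := Finset.card_image_of_injective _ hinj
  have hTH : ∀ e ∈ T, e ∈ H.edgeSet := by
    intro e he
    obtain ⟨e', he', rfl⟩ := Finset.mem_image.1 he
    have h1 := (Finset.mem_filter.1 he').2.1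
    induction e' using Sym2.ind with
    | _ u v =>
      exact hφ.2 u v h1
  have hvs : vs T ⊆ K.image φ := by
    intro x hx
    unfold vs at hx
    obtain ⟨e, he, hxe⟩ := Finset.mem_biUnion.1 hx
    obtain ⟨e', he', rfl⟩ := Finset.mem_image.1 he
    rw [Sym2.mem_toFinset] at hxe
    obtain ⟨y, hy, rfl⟩ := Sym2.mem_map.1 hxe
    exact Finset.mem_image_of_mem _ ((Finset.mem_filter.1 he').2.2 y hy)
  have hvs2 : ((vs T).card : ℝ) ≤ (K.card : ℝ) := by
    exact_mod_cast (Finset.card_le_card hvs).trans Finset.card_image_le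
  have hd := density_log hG hs T hTH
  rw [hTcard] at hd
  have hl := hs.l1
  have h1 : ((vs T).card : ℝ) * l ≤ (K.card : ℝ) * l :=
    mul_le_mul_of_nonneg_right hvs2 (by linarith)
  have h0 : (0 : ℝ) ≤ ((eIn F K).card : ℝ) := Nat.cast_nonneg _
  nlinarith

/-- The chain: restrictions to `K` of any family of embeddings, by strong induction on `|K|`. -/
theorem chain_image (hG : GoodDensity n q H) (hs : Std n q l lam) (hΛ : 0 ≤ Λ)
    (hblock : ∀ K C : Finset α, MinBlock F l lam K C → BlockGoalG F H n q Λ K C) :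
    ∀ (K : Finset α) (S : Finset (α → V)), (∀ φ ∈ S, IsEmb F H φ) →
      ((S.image (proj K)).card : ℝ) ≤
        ((n : ℝ) ^ K.card * q ^ (eIn F K).card) * Λ ^ (eIn F K).card := by
  have hn0 : (0 : ℝ) ≤ (n : ℝ) := Nat.cast_nonneg _
  have hq0 := hs.q0
  intro K
  induction K using Finset.strongInduction with
  | H K ih =>
    intro S hS
    rcases S.eq_empty_or_nonempty with rfl | ⟨φ₀, hφ₀⟩
    · simp only [Finset.image_empty, Finset.card_empty, Nat.cast_zero]
      positivity
    rcases K.eq_empty_or_nonempty with rfl | hK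
    · simp only [Finset.card_empty, pow_zero, eIn_empty, one_mul, mul_one]
      have hsub : S.image (proj (∅ : Finset α)) ⊆ {proj ∅ φ₀} := by
        intro ψ hψ
        obtain ⟨φ, _, rfl⟩ := Finset.mem_image.1 hψ
        refine Finset.mem_singleton.2 ?_
        funext x
        simp [proj]
      have := Finset.card_le_card hsub
      simp only [Finset.card_singleton] at this
      exact_mod_cast this
    obtain ⟨C, hC⟩ := exists_minBlock hK (sv_self_nonneg hG hs (hS φ₀ hφ₀))
    set E := K \ C with hE
    have hEK : E ⊆ K := Finset.sdiff_subset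
    have hEss : E ⊂ K := by
      refine Finset.ssubset_iff_subset_ne.2 ⟨hEK, ?_⟩
      intro h
      obtain ⟨y, hy⟩ := hC.ne
      have : y ∈ K \ C := by
        rw [← hE, h]
        exact hC.sub hy
      exact (Finset.mem_sdiff.1 this).2 hy
    have hunion : E ∪ C = K := Finset.sdiff_union_of_subset hC.sub
    have hdisj : Disjoint E C := Finset.sdiff_disjoint
    set B : ℝ := ((n : ℝ) ^ C.card * q ^ (tch F K C).card) * Λ ^ (tch F K C).card with hB
    have hB0 : 0 ≤ B := by positivity
    have hstep := card_image_proj_step_real (V := V) S hEK hB0 (by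
      intro φ₁ _
      refine hblock K C hC _ (fun φ hφ => hS φ (Finset.mem_filter.1 hφ).1) ?_
      intro φ hφ φ' hφ' x hx
      have h1 := (Finset.mem_filter.1 hφ).2
      have h2 := (Finset.mem_filter.1 hφ').2
      have h3 : proj E φ x = proj E φ' x := by rw [h1, h2]
      unfold proj at h3
      have hxE : x ∈ E := hx
      simpa [hxE] using h3)
    have hih := ih E hEss S hS
    have hecard : (eIn F K).card = (eIn F E).card + (tch F K C).card := by
      have h := eIn_union_card (F := F) (E := E) (C := C)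
      rw [hunion] at h
      rw [h]
      rfl
    have hKcard : K.card = E.card + C.card := by
      rw [← hunion, Finset.card_union_of_disjoint hdisj]
    calc ((S.image (proj K)).card : ℝ) ≤ B * ((S.image (proj E)).card : ℝ) := hstep
      _ ≤ B * (((n : ℝ) ^ E.card * q ^ (eIn F E).card) * Λ ^ (eIn F E).card) :=
          mul_le_mul_of_nonneg_left hih hB0
      _ = ((n : ℝ) ^ K.card * q ^ (eIn F K).card) * Λ ^ (eIn F K).card := by
          rw [hB, hecard, hKcard]
          ring

/-- The number of embeddings of `F`. -/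
theorem emb_chain_gen (hG : GoodDensity n q H) (hs : Std n q l lam) (hΛ : 0 ≤ Λ)
    (hblock : ∀ K C : Finset α, MinBlock F l lam K C → BlockGoalG F H n q Λ K C) :
    ((emb F H).card : ℝ) ≤ ((n : ℝ) ^ Fintype.card α * q ^ (eIn F univ).card) *
      Λ ^ (eIn F univ).card := by
  have h := chain_image hG hs hΛ hblock univ (emb F H) (fun φ hφ => mem_emb.1 hφ)
  have hinj : ((emb F H).image (proj (univ : Finset α))).card = (emb F H).card :=
    Finset.card_image_of_injective _ proj_univ_injective
  rw [hinj, Finset.card_univ] at h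
  exact h

/-- The embedding bound from the bound on all blocks of all graphs. -/
theorem embBound_gen (hG : GoodDensity n q H) (hs : Std n q l lam) (hΛ : 0 ≤ Λ)
    (hblock : ∀ (β : Type) [Fintype β] (G : SimpleGraph β) (K C : Finset β),
      MinBlock G l lam K C → BlockGoalG G H n q Λ K C) :
    EmbBound n H (Real.exp 2 * q * Λ) := by
  intro β _ G hiso hvn
  have hmain := emb_chain_gen (F := G) hG hs hΛ (hblock β G)
  refine hmain.trans ?_
  set e := (eIn G univ).card with he
  set v := Fintype.card β with hv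
  have hve : v ≤ 2 * e := (vertices_le_darts hiso).trans darts_card_le
  have hnd := pow_le_exp_descFactorial hvn
  have hd0 : (0 : ℝ) ≤ (n.descFactorial v : ℝ) := Nat.cast_nonneg _
  have hq0 := hs.q0
  have hE1 : (1 : ℝ) ≤ Real.exp 1 := Real.one_le_exp (by norm_num)
  have h2 : Real.exp 2 = Real.exp 1 ^ 2 := by
    rw [← Real.exp_nat_mul]
    norm_num
  have hpow : Real.exp 1 ^ v ≤ (Real.exp 2) ^ e := by
    rw [h2, ← pow_mul]
    exact pow_le_pow_right₀ hE1 hve
  have hqΛ : 0 ≤ q ^ e * Λ ^ e := by positivity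
  calc (n : ℝ) ^ v * q ^ e * Λ ^ e = (n : ℝ) ^ v * (q ^ e * Λ ^ e) := by ring
    _ ≤ (Real.exp 1 ^ v * (n.descFactorial v : ℝ)) * (q ^ e * Λ ^ e) :=
        mul_le_mul_of_nonneg_right hnd hqΛ
    _ ≤ ((Real.exp 2) ^ e * (n.descFactorial v : ℝ)) * (q ^ e * Λ ^ e) := by
        refine mul_le_mul_of_nonneg_right ?_ hqΛ
        exact mul_le_mul_of_nonneg_right hpow hd0
    _ = (Real.exp 2 * q * Λ) ^ e * (n.descFactorial v : ℝ) := by
        rw [mul_pow, mul_pow]
        ring

end Vale.Agent.Lib.P064E
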