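import Vale.Agent.Lib.P064E.BlockOne
import Vale.Agent.Lib.P064E.BlockSmall
import Vale.Agent.Lib.P064E.BlockLarge
import Vale.Agent.Lib.P064E.ChainGen

/-!
Part G: the chain of blocks and the embedding bound.
-/

open Finset

namespace Vale.Agent.Lib.P064E

open Vale.Agent.Lib.P064
open scoped Classical

variable {V : Type} [Fintype V] {H : SimpleGraph V} {n : ℕ} {q l lam δ : ℝ} {b₁ : ℕ}

/-- All blocks. -/
theorem block_all {α : Type} [Fintype α] {F : SimpleGraph α} {K C : Finset α} (hG : GoodDensity n q H) (hs : Std n q l lam) (hnum : BlockNum b₁ l δ)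
    (hV : Fintype.card V ≤ n) (hb : MinBlock F l lam K C) :
    BlockGoal F H n q (Lam b₁ l lam δ) K C := by
  by_cases hm : (tch F K C).card = 0
  · exact block_m_zero hs hV hb hm
  have hm1 : 1 ≤ (tch F K C).card := Nat.one_le_iff_ne_zero.2 hm
  by_cases h1 : C.card = 1
  · exact block_single hG hs hnum hb h1 hm1
  have hpos : 0 < C.card := Finset.card_pos.2 hb.ne
  have h2 : 2 ≤ C.card := by omega
  by_cases hb₁ : C.card < b₁
  · exact block_small hG hs hnum hb h2 hb₁
  · exact block_large hG hs hnum hV hb h2 (not_lt.1 hb₁)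

lemma Lam_nonneg (hs : Std n q l lam) : 0 ≤ Lam b₁ l lam δ := by
  unfold Lam
  have hl0 : 0 ≤ l := by linarith [hs.l1]
  have hB : 0 ≤ baseB l := by
    unfold baseB
    positivity
  have h3 := Real.rpow_nonneg hB ((1 + δ) * lam / l)
  positivity

/-- The number of embeddings of `F`, by induction on `K` along minimal blocks. -/
theorem emb_chain {α : Type} [Fintype α] {F : SimpleGraph α}
    (hG : GoodDensity n q H) (hs : Std n q l lam) (hnum : BlockNum b₁ l δ)
    (hV : Fintype.card V ≤ n) :
    ((emb F H).card : ℝ) ≤ ((n : ℝ) ^ Fintype.card α * q ^ (eIn F univ).card) *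
      Lam b₁ l lam δ ^ (eIn F univ).card :=
  emb_chain_gen hG hs (Lam_nonneg hs) (fun _ _ hb => block_all hG hs hnum hV hb)

/-- The embedding bound, from `emb_chain`, `pow_le_exp_descFactorial` and `vertices_le_darts`. -/
theorem embBound_chain (hG : GoodDensity n q H) (hs : Std n q l lam) (hnum : BlockNum b₁ l δ)
    (hV : Fintype.card V ≤ n) :
    EmbBound n H (Real.exp 2 * q * Lam b₁ l lam δ) :=
  embBound_gen hG hs (Lam_nonneg hs) (fun _ _ _ _ _ hb => block_all hG hs hnum hV hb)

end Vale.Agent.Lib.P064E
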