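import Mathlib

/-!
Part C: decomposition of a graph into an in-forest with few sources and small non-adjacent parts.
-/

open Finset

namespace Vale.Agent.Lib.P064E

open scoped Classical

variable {α : Type} [Fintype α]

/-- `Q₀ ⊆ Q` with parent map `p` (`p x = x` at roots) and source set `Lf`, such that
`Q₀` is the closure of `Lf` under `p`; the rest `Q \ Q₀` splits into pairwise non-adjacent parts
of size at most `s₀`; and `s₀ |Lf| ≤ |Q|`. -/
structure TreeDec (G : SimpleGraph α) (Q : Finset α) (s₀ : ℕ) (Q₀ Lf : Finset α) (p : α → α)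
    (parts : Finset (Finset α)) : Prop where
  sub : Q₀ ⊆ Q
  lf_sub : Lf ⊆ Q₀
  padj : ∀ x ∈ Q₀, p x = x ∨ (p x ∈ Q₀ ∧ G.Adj x (p x))
  reach : ∀ T : Finset α, Lf ⊆ T → (∀ x ∈ T, x ∈ Q₀ → p x ∈ T) → Q₀ ⊆ T
  lf_card : s₀ * Lf.card ≤ Q.card
  parts_sub : ∀ P ∈ parts, P ⊆ Q \ Q₀ ∧ P.Nonempty ∧ P.card ≤ s₀
  parts_cover : ∀ x ∈ Q \ Q₀, ∃ P ∈ parts, x ∈ P
  parts_disj : ∀ P ∈ parts, ∀ P' ∈ parts, P ≠ P' → Disjoint P P'
  parts_nonadj : ∀ P ∈ parts, ∀ P' ∈ parts, P ≠ P' → ∀ x ∈ P, ∀ y ∈ P', ¬ G.Adj x y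

/-- The auxiliary form of the decomposition: vertices of `N` may link to `up x`. -/
private structure AuxDec (G : SimpleGraph α) (D : Finset α) (s₀ : ℕ) (N : Finset α) (up : α → α)
    (Q₀ Lf : Finset α) (p : α → α) (parts : Finset (Finset α)) : Prop where
  sub : Q₀ ⊆ D
  lf_sub : Lf ⊆ Q₀
  padj : ∀ x ∈ Q₀, (x ∈ N ∧ p x = up x) ∨ (p x ∈ Q₀ ∧ G.Adj x (p x))
  reach : ∀ T : Finset α, Lf ⊆ T → (∀ x ∈ T, x ∈ Q₀ → p x ∈ T) → Q₀ ⊆ T
  lf_card : s₀ * Lf.card ≤ D.card
  parts_sub : ∀ P ∈ parts, P ⊆ D \ Q₀ ∧ P.Nonempty ∧ P.card ≤ s₀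
  parts_cover : ∀ x ∈ D \ Q₀, ∃ P ∈ parts, x ∈ P
  parts_disj : ∀ P ∈ parts, ∀ P' ∈ parts, P ≠ P' → Disjoint P P'
  parts_nonadj : ∀ P ∈ parts, ∀ P' ∈ parts, P ≠ P' → ∀ x ∈ P, ∀ y ∈ P', ¬ G.Adj x y
  link : Q₀.Nonempty → ∃ x ∈ Q₀, x ∈ N ∧ p x = up x

/-- `W` has no edges to the rest of `D`. -/
private def ClosedIn (G : SimpleGraph α) (D W : Finset α) : Prop :=
  ∀ x ∈ W, ∀ y ∈ D \ W, ¬ G.Adj x y

/-- A minimal non empty closed subset. -/
private theorem exists_component (G : SimpleGraph α) (D : Finset α) (hD : D.Nonempty) :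
    ∃ Z ⊆ D, Z.Nonempty ∧ ClosedIn G D Z ∧
      ∀ W ⊆ Z, W.Nonempty → ClosedIn G D W → W = Z := by
  have hne : ((D.powerset).filter fun W => W.Nonempty ∧ ClosedIn G D W).Nonempty := by
    refine ⟨D, Finset.mem_filter.2 ⟨Finset.mem_powerset.2 (Finset.Subset.refl _), hD, ?_⟩⟩
    intro x _ y hy
    simp at hy
  obtain ⟨Z, hZ, hmin⟩ := Finset.exists_min_image _ Finset.card hne
  obtain ⟨hZ₁, hZ₂, hZ₃⟩ := Finset.mem_filter.1 hZ
  have hZD := Finset.mem_powerset.1 hZ₁
  refine ⟨Z, hZD, hZ₂, hZ₃, ?_⟩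
  intro W hWZ hW hWc
  have := hmin W (Finset.mem_filter.2 ⟨Finset.mem_powerset.2 (hWZ.trans hZD), hW, hWc⟩)
  exact Finset.eq_of_subset_of_card_le hWZ this

private theorem aux_dec (G : SimpleGraph α) (s₀ : ℕ) :
    ∀ (n : ℕ) (D : Finset α), D.card = n → ∀ (N : Finset α) (up : α → α),
      (∀ W ⊆ D, W.Nonempty → ClosedIn G D W → ∃ x ∈ W, x ∈ N) →
      ∃ Q₀ Lf p parts, AuxDec G D s₀ N up Q₀ Lf p parts := by
  intro n
  induction n using Nat.strong_induction_on with
  | _ n ih =>
    intro D hDn N up hatt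
    by_cases hD : D.Nonempty
    swap
    · rw [Finset.not_nonempty_iff_eq_empty] at hD
      subst hD
      refine ⟨∅, ∅, id, ∅, ?_⟩
      constructor <;> simp
    obtain ⟨Z, hZD, hZne, hZc, hZmin⟩ := exists_component G D hD
    obtain ⟨z, hzZ, hzN⟩ := hatt Z hZD hZne hZc
    -- the rest
    set D' := D \ Z with hD'
    have hD'card : D'.card + Z.card = D.card := Finset.card_sdiff_add_card_eq_card hZD
    have hZpos : 0 < Z.card := Finset.card_pos.2 hZne
    have hZdisj : ∀ x ∈ D', x ∉ Z := fun x hx => (Finset.mem_sdiff.1 hx).2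
    have hnoadj : ∀ x ∈ Z, ∀ y ∈ D', ¬ G.Adj x y := by
      intro x hx y hy
      exact hZc x hx y hy
    have hatt' : ∀ W ⊆ D', W.Nonempty → ClosedIn G D' W → ∃ x ∈ W, x ∈ N := by
      intro W hW hne hc
      refine hatt W (hW.trans Finset.sdiff_subset) hne ?_
      intro x hx y hy
      by_cases hyZ : y ∈ Z
      · intro hadj
        exact hnoadj y hyZ x (hW hx) hadj.symm
      · refine hc x hx y ?_
        obtain ⟨hy₁, hy₂⟩ := Finset.mem_sdiff.1 hy
        exact Finset.mem_sdiff.2 ⟨Finset.mem_sdiff.2 ⟨hy₁, hyZ⟩, hy₂⟩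
    obtain ⟨Q₁, L₁, p₁, parts₁, h₁⟩ := ih D'.card (by omega) D' rfl N up hatt'
    have hQ₁Z : ∀ x ∈ Q₁, x ∉ Z := fun x hx => hZdisj x (h₁.sub hx)
    have hP₁ : ∀ P ∈ parts₁, ∀ x ∈ P, x ∈ D' ∧ x ∉ Q₁ := by
      intro P hP x hx
      exact Finset.mem_sdiff.1 ((h₁.parts_sub P hP).1 hx)
    by_cases hsmall : Z.card ≤ s₀
    · -- a new part
      refine ⟨Q₁, L₁, p₁, insert Z parts₁, ?_⟩
      have hZ₁ : Z ∉ parts₁ := by
        intro hmem
        obtain ⟨w, hw⟩ := hZne
        exact hZdisj w (hP₁ Z hmem w hw).1 hw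
      refine
        { sub := h₁.sub.trans Finset.sdiff_subset
          lf_sub := h₁.lf_sub
          padj := h₁.padj
          reach := h₁.reach
          lf_card := by
            have := h₁.lf_card
            omega
          parts_sub := ?_
          parts_cover := ?_
          parts_disj := ?_
          parts_nonadj := ?_
          link := h₁.link }
      · intro P hP
        rcases Finset.mem_insert.1 hP with rfl | hP
        · refine ⟨?_, hZne, hsmall⟩
          intro x hx
          exact Finset.mem_sdiff.2 ⟨hZD hx, fun hq => hQ₁Z x hq hx⟩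
        · obtain ⟨h1, h2, h3⟩ := h₁.parts_sub P hP
          refine ⟨?_, h2, h3⟩
          intro x hx
          obtain ⟨hx₁, hx₂⟩ := hP₁ P hP x hx
          exact Finset.mem_sdiff.2 ⟨(Finset.mem_sdiff.1 hx₁).1, hx₂⟩
      · intro x hx
        obtain ⟨hx₁, hx₂⟩ := Finset.mem_sdiff.1 hx
        by_cases hxZ : x ∈ Z
        · exact ⟨Z, Finset.mem_insert_self _ _, hxZ⟩
        · obtain ⟨P, hP, hxP⟩ := h₁.parts_cover x
            (Finset.mem_sdiff.2 ⟨Finset.mem_sdiff.2 ⟨hx₁, hxZ⟩, hx₂⟩)
          exact ⟨P, Finset.mem_insert_of_mem hP, hxP⟩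
      · intro P hP P' hP' hne
        rcases Finset.mem_insert.1 hP with hPZ | hPm
        · rcases Finset.mem_insert.1 hP' with hPZ' | hPm'
          · exact absurd (hPZ.trans hPZ'.symm) hne
          · rw [hPZ, Finset.disjoint_left]
            intro x hx hx'
            exact hZdisj x (hP₁ P' hPm' x hx').1 hx
        · rcases Finset.mem_insert.1 hP' with hPZ' | hPm'
          · rw [hPZ', Finset.disjoint_left]
            intro x hx hx'
            exact hZdisj x (hP₁ P hPm x hx).1 hx'
          · exact h₁.parts_disj P hPm P' hPm' hne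
      · intro P hP P' hP' hne x hx y hy
        rcases Finset.mem_insert.1 hP with hPZ | hPm
        · rcases Finset.mem_insert.1 hP' with hPZ' | hPm'
          · exact absurd (hPZ.trans hPZ'.symm) hne
          · exact hnoadj x (hPZ ▸ hx) y (hP₁ P' hPm' y hy).1
        · rcases Finset.mem_insert.1 hP' with hPZ' | hPm'
          · intro hadj
            exact hnoadj y (hPZ' ▸ hy) x (hP₁ P hPm x hx).1 hadj.symm
          · exact h₁.parts_nonadj P hPm P' hPm' hne x hx y hy
    · -- a big component: recursion around `z`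
      have hsmall' : s₀ < Z.card := by omega
      set Z' := Z.erase z with hZ'
      have hZ'card : Z'.card + 1 = Z.card := Finset.card_erase_add_one hzZ
      set N' : Finset α := Finset.univ.filter fun x => G.Adj z x with hN'
      have hatt₂ : ∀ W ⊆ Z', W.Nonempty → ClosedIn G Z' W → ∃ x ∈ W, x ∈ N' := by
        intro W hW hne hc
        by_contra hcon
        have hWZ : W ⊆ Z := hW.trans (Finset.erase_subset _ _)
        have hcl : ClosedIn G D W := by
          intro x hx y hy
          obtain ⟨hy₁, hy₂⟩ := Finset.mem_sdiff.1 hy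
          by_cases hyZ : y ∈ Z
          · by_cases hyz : y = z
            · subst hyz
              intro hadj
              exact hcon ⟨x, hx, Finset.mem_filter.2 ⟨Finset.mem_univ _, hadj.symm⟩⟩
            · exact hc x hx y (Finset.mem_sdiff.2 ⟨Finset.mem_erase.2 ⟨hyz, hyZ⟩, hy₂⟩)
          · exact hnoadj x (hWZ hx) y (Finset.mem_sdiff.2 ⟨hy₁, hyZ⟩)
        have := hZmin W hWZ hne hcl
        have hzW : z ∈ W := this ▸ hzZ
        exact (Finset.mem_erase.1 (hW hzW)).1 rfl
      obtain ⟨Q₂, L₂, p₂, parts₂, h₂⟩ :=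
        ih Z'.card (by omega) Z' rfl N' (fun _ => z) hatt₂
      have hQ₂Z : ∀ x ∈ Q₂, x ∈ Z ∧ x ≠ z := by
        intro x hx
        have := Finset.mem_erase.1 (h₂.sub hx)
        exact ⟨this.2, this.1⟩
      have hP₂ : ∀ P ∈ parts₂, ∀ x ∈ P, x ∈ Z ∧ x ≠ z ∧ x ∉ Q₂ := by
        intro P hP x hx
        obtain ⟨hx₁, hx₂⟩ := Finset.mem_sdiff.1 ((h₂.parts_sub P hP).1 hx)
        have := Finset.mem_erase.1 hx₁
        exact ⟨this.2, this.1, hx₂⟩
      let p : α → α := fun x => if x = z then up z else if x ∈ Z then p₂ x else p₁ x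
      have hp₁ : ∀ x, x ∉ Z → p x = p₁ x := by
        intro x hx
        have hxz : x ≠ z := fun h => hx (h ▸ hzZ)
        simp only [p, if_neg hxz, if_neg hx]
      have hp₂ : ∀ x, x ∈ Z → x ≠ z → p x = p₂ x := by
        intro x hx hxz
        simp only [p, if_neg hxz, if_pos hx]
      have hpz : p z = up z := by simp only [p, if_true]
      refine ⟨Q₁ ∪ insert z Q₂, L₁ ∪ (if Q₂ = ∅ then {z} else L₂), p, parts₁ ∪ parts₂, ?_⟩
      have hLz : (if Q₂ = ∅ then {z} else L₂) ⊆ insert z Q₂ := by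
        split_ifs with h
        · simp
        · exact h₂.lf_sub.trans (Finset.subset_insert _ _)
      refine
        { sub := ?_
          lf_sub := ?_
          padj := ?_
          reach := ?_
          lf_card := ?_
          parts_sub := ?_
          parts_cover := ?_
          parts_disj := ?_
          parts_nonadj := ?_
          link := fun _ => ⟨z, ?_, hzN, hpz⟩ }
      · intro x hx
        rcases Finset.mem_union.1 hx with hx | hx
        · exact (Finset.mem_sdiff.1 (h₁.sub hx)).1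
        · rcases Finset.mem_insert.1 hx with rfl | hx
          · exact hZD hzZ
          · exact hZD (hQ₂Z x hx).1
      · exact Finset.union_subset_union h₁.lf_sub hLz
      · intro x hx
        rcases Finset.mem_union.1 hx with hx | hx
        · rw [hp₁ x (hQ₁Z x hx)]
          rcases h₁.padj x hx with h | ⟨h, hadj⟩
          · exact Or.inl h
          · exact Or.inr ⟨Finset.mem_union_left _ h, hadj⟩
        · rcases Finset.mem_insert.1 hx with rfl | hx
          · exact Or.inl ⟨hzN, hpz⟩
          · obtain ⟨hxZ, hxz⟩ := hQ₂Z x hx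
            rw [hp₂ x hxZ hxz]
            rcases h₂.padj x hx with ⟨hN, hpx⟩ | ⟨h, hadj⟩
            · refine Or.inr ⟨?_, ?_⟩
              · rw [hpx]
                exact Finset.mem_union_right _ (Finset.mem_insert_self _ _)
              · rw [hpx]
                exact (Finset.mem_filter.1 hN).2.symm
            · exact Or.inr ⟨Finset.mem_union_right _ (Finset.mem_insert_of_mem h), hadj⟩
      · intro T hT hcl
        have hT₁ : L₁ ⊆ T := Finset.subset_union_left.trans hT
        have hT₂ : (if Q₂ = ∅ then {z} else L₂) ⊆ T := Finset.subset_union_right.trans hT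
        have hQ₁T : Q₁ ⊆ T := by
          refine h₁.reach T hT₁ ?_
          intro x hxT hx
          rw [← hp₁ x (hQ₁Z x hx)]
          exact hcl x hxT (Finset.mem_union_left _ hx)
        by_cases hQ₂ : Q₂ = ∅
        · rw [if_pos hQ₂] at hT₂
          have hzT : z ∈ T := hT₂ (Finset.mem_singleton_self _)
          refine Finset.union_subset hQ₁T ?_
          rw [hQ₂]
          simpa using hzT
        · rw [if_neg hQ₂] at hT₂
          have hQ₂T : Q₂ ⊆ T := by
            refine h₂.reach T hT₂ ?_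
            intro x hxT hx
            obtain ⟨hxZ, hxz⟩ := hQ₂Z x hx
            rw [← hp₂ x hxZ hxz]
            exact hcl x hxT (Finset.mem_union_right _ (Finset.mem_insert_of_mem hx))
          obtain ⟨x, hx, _, hpx⟩ := h₂.link (Finset.nonempty_iff_ne_empty.2 hQ₂)
          obtain ⟨hxZ, hxz⟩ := hQ₂Z x hx
          have hzT : z ∈ T := by
            have := hcl x (hQ₂T hx) (Finset.mem_union_right _ (Finset.mem_insert_of_mem hx))
            rw [hp₂ x hxZ hxz, hpx] at this
            exact this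
          refine Finset.union_subset hQ₁T (Finset.insert_subset hzT hQ₂T)
      · have h1 := h₁.lf_card
        have h2 : s₀ * (if Q₂ = ∅ then ({z} : Finset α) else L₂).card ≤ Z.card := by
          split_ifs with h
          · simpa using hsmall'.le
          · have := h₂.lf_card
            omega
        calc s₀ * (L₁ ∪ (if Q₂ = ∅ then {z} else L₂)).card
            ≤ s₀ * (L₁.card + (if Q₂ = ∅ then ({z} : Finset α) else L₂).card) :=
              Nat.mul_le_mul_left _ (Finset.card_union_le _ _)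
          _ = s₀ * L₁.card + s₀ * (if Q₂ = ∅ then ({z} : Finset α) else L₂).card := by ring
          _ ≤ D.card := by omega
      · intro P hP
        rcases Finset.mem_union.1 hP with hP | hP
        · obtain ⟨_, h2, h3⟩ := h₁.parts_sub P hP
          refine ⟨?_, h2, h3⟩
          intro x hx
          obtain ⟨hx₁, hx₂⟩ := hP₁ P hP x hx
          obtain ⟨hx₃, hx₄⟩ := Finset.mem_sdiff.1 hx₁
          refine Finset.mem_sdiff.2 ⟨hx₃, ?_⟩
          intro hq
          rcases Finset.mem_union.1 hq with hq | hq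
          · exact hx₂ hq
          · rcases Finset.mem_insert.1 hq with rfl | hq
            · exact hx₄ hzZ
            · exact hx₄ (hQ₂Z x hq).1
        · obtain ⟨_, h2, h3⟩ := h₂.parts_sub P hP
          refine ⟨?_, h2, h3⟩
          intro x hx
          obtain ⟨hx₁, hx₂, hx₃⟩ := hP₂ P hP x hx
          refine Finset.mem_sdiff.2 ⟨hZD hx₁, ?_⟩
          intro hq
          rcases Finset.mem_union.1 hq with hq | hq
          · exact hQ₁Z x hq hx₁
          · rcases Finset.mem_insert.1 hq with h | h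
            · exact hx₂ h
            · exact hx₃ h
      · intro x hx
        obtain ⟨hx₁, hx₂⟩ := Finset.mem_sdiff.1 hx
        have hx₃ : x ∉ Q₁ := fun h => hx₂ (Finset.mem_union_left _ h)
        have hx₄ : x ∉ insert z Q₂ := fun h => hx₂ (Finset.mem_union_right _ h)
        by_cases hxZ : x ∈ Z
        · have hxz : x ≠ z := fun h => hx₄ (h ▸ Finset.mem_insert_self _ _)
          have hx₅ : x ∉ Q₂ := fun h => hx₄ (Finset.mem_insert_of_mem h)
          obtain ⟨P, hP, hxP⟩ := h₂.parts_cover x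
            (Finset.mem_sdiff.2 ⟨Finset.mem_erase.2 ⟨hxz, hxZ⟩, hx₅⟩)
          exact ⟨P, Finset.mem_union_right _ hP, hxP⟩
        · obtain ⟨P, hP, hxP⟩ := h₁.parts_cover x
            (Finset.mem_sdiff.2 ⟨Finset.mem_sdiff.2 ⟨hx₁, hxZ⟩, hx₃⟩)
          exact ⟨P, Finset.mem_union_left _ hP, hxP⟩
      · intro P hP P' hP' hne
        rcases Finset.mem_union.1 hP with hP | hP
        · rcases Finset.mem_union.1 hP' with hP' | hP'
          · exact h₁.parts_disj P hP P' hP' hne
          · rw [Finset.disjoint_left]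
            intro x hx hx'
            exact hZdisj x (hP₁ P hP x hx).1 (hP₂ P' hP' x hx').1
        · rcases Finset.mem_union.1 hP' with hP' | hP'
          · rw [Finset.disjoint_left]
            intro x hx hx'
            exact hZdisj x (hP₁ P' hP' x hx').1 (hP₂ P hP x hx).1
          · exact h₂.parts_disj P hP P' hP' hne
      · intro P hP P' hP' hne x hx y hy
        rcases Finset.mem_union.1 hP with hP | hP
        · rcases Finset.mem_union.1 hP' with hP' | hP'
          · exact h₁.parts_nonadj P hP P' hP' hne x hx y hy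
          · intro hadj
            exact hnoadj y (hP₂ P' hP' y hy).1 x (hP₁ P hP x hx).1 hadj.symm
        · rcases Finset.mem_union.1 hP' with hP' | hP'
          · exact hnoadj x (hP₂ P hP x hx).1 y (hP₁ P' hP' y hy).1
          · exact h₂.parts_nonadj P hP P' hP' hne x hx y hy
      · exact Finset.mem_union_right _ (Finset.mem_insert_self _ _)

/-- Existence of the decomposition. -/
theorem exists_treeDec (G : SimpleGraph α) (Q : Finset α) (s₀ : ℕ) (hs₀ : 1 ≤ s₀) :
    ∃ Q₀ Lf p parts, TreeDec G Q s₀ Q₀ Lf p parts := by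
  obtain ⟨Q₀, Lf, p, parts, h⟩ := aux_dec G s₀ Q.card Q rfl Q id (by
    intro W hW hne _
    obtain ⟨x, hx⟩ := hne
    exact ⟨x, hx, hW hx⟩)
  refine ⟨Q₀, Lf, p, parts, ?_⟩
  refine
    { sub := h.sub
      lf_sub := h.lf_sub
      padj := ?_
      reach := h.reach
      lf_card := h.lf_card
      parts_sub := h.parts_sub
      parts_cover := h.parts_cover
      parts_disj := h.parts_disj
      parts_nonadj := h.parts_nonadj }
  intro x hx
  rcases h.padj x hx with ⟨_, hp⟩ | h'
  · exact Or.inl hp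
  · exact Or.inr h'

end Vale.Agent.Lib.P064E
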