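import Vale.Agent.Lib.P064.PeelFinal

/-!
Minimal blocks: definitions for the block-chain bound on embeddings.
-/

open Finset

namespace Vale.Agent.Lib.P064E

open Vale.Agent.Lib.P064
open scoped Classical

variable {V α : Type} [Fintype V] [Fintype α]

/-- Edges of `F` with both ends in `K` and at least one end in `Y` (for `Y ⊆ K`). -/
noncomputable def tch (F : SimpleGraph α) (K Y : Finset α) : Finset (Sym2 α) := newE F (K \ Y) Y

/-- The neighbours of `Y` in `K \ Y`. -/
noncomputable def att (F : SimpleGraph α) (K Y : Finset α) : Finset α := core F (K \ Y) Y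

/-- The value `|Y| l - e_Y (lam - 1)`; here `l = log n`, `lam = log (1 / q)`. -/
noncomputable def sv (F : SimpleGraph α) (l lam : ℝ) (K Y : Finset α) : ℝ :=
  (Y.card : ℝ) * l - ((tch F K Y).card : ℝ) * (lam - 1)

/-- A minimal nonempty `C ⊆ K` with nonnegative value. -/
structure MinBlock (F : SimpleGraph α) (l lam : ℝ) (K C : Finset α) : Prop where
  ne : C.Nonempty
  sub : C ⊆ K
  nonneg : 0 ≤ sv F l lam K C
  neg : ∀ Y ⊆ C, Y.Nonempty → Y ≠ C → sv F l lam K Y < 0

/-- The standing numeric assumptions: `l = log n ≥ 1`, `lam = log (1/q) ≥ 1`, `lam ≤ l`. -/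
structure Std (n : ℕ) (q l lam : ℝ) : Prop where
  n1 : 1 ≤ n
  l_eq : l = Real.log n
  lam_eq : lam = - Real.log q
  q0 : 0 < q
  l1 : 1 ≤ l
  lam1 : 1 ≤ lam
  lam_le : lam ≤ l

lemma Std.q1 {n : ℕ} {q l lam : ℝ} (h : Std n q l lam) : q ≤ 1 := by
  have h1 := h.lam1
  have h2 := h.lam_eq
  have h3 : Real.log q ≤ 0 := by linarith
  exact (Real.log_nonpos_iff h.q0.le).1 h3

/-- An injective homomorphism, as used everywhere below. -/
def IsEmb (F : SimpleGraph α) (H : SimpleGraph V) (φ : α → V) : Prop :=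
  Function.Injective φ ∧ ∀ u v, F.Adj u v → H.Adj (φ u) (φ v)

/-- The image of the edges of `F` in `K` touching `Y`, under `φ`. -/
noncomputable def tchIm (F : SimpleGraph α) (K Y : Finset α) (φ : α → V) : Finset (Sym2 V) :=
  (tch F K Y).image (Sym2.map φ)

/-- The vertices of a set of edges. -/
noncomputable def vs (T : Finset (Sym2 V)) : Finset V := T.biUnion fun e => e.toFinset

/-- All families of embeddings below `Q` have few restrictions to `Q`, for `Q ⊆ C` of size at most `s`. -/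
def LevelBound (F : SimpleGraph α) (H : SimpleGraph V) (l : ℝ) (K C : Finset α) (s : ℕ)
    (B c : ℝ) : Prop :=
  ∀ Q ⊆ C, Q.Nonempty → Q.card ≤ s →
    ∀ (S : Finset (α → V)) (U : Finset (Sym2 V)),
      (∀ φ ∈ S, IsEmb F H φ) →
      (∀ φ ∈ S, ∀ φ' ∈ S, ∀ x ∈ att F K Q, φ x = φ' x) →
      (∀ e ∈ U, e ∈ H.edgeSet) →
      (∀ φ ∈ S, tchIm F K Q φ ⊆ U) →
      (U.card : ℝ) ≤ 3 * ((tch F K Q).card : ℝ) * l →
      ((S.image (proj Q)).card : ℝ) ≤ B ^ Q.card * Real.exp (c * ((tch F K Q).card : ℝ))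

end Vale.Agent.Lib.P064E
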