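import Vale.Agent.Lib.P064E.Defs

/-!
Part B: basic facts about `tch`, `att` and minimal blocks.
-/

open Finset

namespace Vale.Agent.Lib.P064E

open Vale.Agent.Lib.P064
open scoped Classical

variable {V α : Type} [Fintype V] [Fintype α] {F : SimpleGraph α} {H : SimpleGraph V} {n : ℕ} {q : ℝ}
  {l lam : ℝ} {K C Q Y : Finset α}

lemma mem_tch_pair (hY : Y ⊆ K) {u v : α} :
    s(u, v) ∈ tch F K Y ↔ F.Adj u v ∧ u ∈ K ∧ v ∈ K ∧ (u ∈ Y ∨ v ∈ Y) := by
  unfold tch
  rw [mem_newE_pair]
  simp only [Finset.mem_sdiff]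
  constructor
  · rintro ⟨h1, h2, h3, h4⟩
    refine ⟨h1, ?_, ?_, ?_⟩
    · rcases h2 with h | h
      · exact h.1
      · exact hY h
    · rcases h3 with h | h
      · exact h.1
      · exact hY h
    · by_contra hcon
      push Not at hcon
      apply h4
      have hu : u ∈ K := by
        rcases h2 with h | h
        · exact h.1
        · exact absurd h hcon.1
      have hv : v ∈ K := by
        rcases h3 with h | h
        · exact h.1
        · exact absurd h hcon.2
      exact ⟨⟨hu, hcon.1⟩, ⟨hv, hcon.2⟩⟩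
  · rintro ⟨h1, h2, h3, h4⟩
    refine ⟨h1, ?_, ?_, ?_⟩
    · by_cases h : u ∈ Y
      · exact Or.inr h
      · exact Or.inl ⟨h2, h⟩
    · by_cases h : v ∈ Y
      · exact Or.inr h
      · exact Or.inl ⟨h3, h⟩
    · rintro ⟨⟨_, h5⟩, ⟨_, h6⟩⟩
      tauto

lemma tch_mono (hY : Y ⊆ Q) (hQ : Q ⊆ K) : tch F K Y ⊆ tch F K Q := by
  intro e he
  induction e using Sym2.ind with
  | _ u v =>
    obtain ⟨h1, h2, h3, h4⟩ := (mem_tch_pair (hY.trans hQ)).1 he
    refine (mem_tch_pair hQ).2 ⟨h1, h2, h3, ?_⟩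
    rcases h4 with h | h
    · exact Or.inl (hY h)
    · exact Or.inr (hY h)

lemma mem_att {w : α} : w ∈ att F K Y ↔ w ∈ K ∧ w ∉ Y ∧ ∃ c ∈ Y, F.Adj c w := by
  unfold att core
  simp only [Finset.mem_filter, Finset.mem_sdiff]
  tauto

/-- An attachment vertex `w` of `Y` gives an edge; distinct vertices give distinct edges. -/
lemma att_card_le (hY : Y ⊆ K) : (att F K Y).card ≤ (tch F K Y).card := by
  have hex : ∀ w ∈ att F K Y, ∃ c, c ∈ Y ∧ F.Adj c w := by
    intro w hw
    obtain ⟨_, _, c, hc, hadj⟩ := mem_att.1 hw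
    exact ⟨c, hc, hadj⟩
  choose! g hg1 hg2 using hex
  refine Finset.card_le_card_of_injOn (fun w => s(g w, w)) ?_ ?_
  · intro w hw
    have hw' : w ∈ att F K Y := hw
    obtain ⟨h1, h2, _⟩ := mem_att.1 hw'
    exact (mem_tch_pair hY).2 ⟨hg2 w hw', hY (hg1 w hw'), h1, Or.inl (hg1 w hw')⟩
  · intro w hw w' hw' h
    have hw1 : w ∈ att F K Y := hw
    have hw2 : w' ∈ att F K Y := hw'
    obtain ⟨_, h2, _⟩ := mem_att.1 hw1
    simp only [Sym2.eq_iff] at h
    rcases h with ⟨_, h⟩ | ⟨_, h⟩
    · exact h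
    · have h3 : w ∈ Y := by
        rw [h]
        exact hg1 w' hw2
      exact absurd h3 h2

/-- Sum of the degrees: each edge is counted at most twice. -/
lemma sum_tch_single_le (hQ : Q ⊆ K) : ∑ y ∈ Q, (tch F K {y}).card ≤ 2 * (tch F K Q).card := by
  have h1 : ∀ z ∈ Q, (tch F K {z}).card ≤ ((tch F K Q).filter (fun e => z ∈ e)).card := by
    intro z hz
    refine Finset.card_le_card ?_
    intro e he
    refine Finset.mem_filter.2 ⟨tch_mono (by simpa using hz) hQ he, ?_⟩
    have hzK : ({z} : Finset α) ⊆ K := by simpa using hQ hz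
    induction e using Sym2.ind with
    | _ u v =>
      obtain ⟨_, _, _, h4⟩ := (mem_tch_pair hzK).1 he
      simp only [Finset.mem_singleton] at h4
      rw [Sym2.mem_iff]
      rcases h4 with h | h
      · exact Or.inl h.symm
      · exact Or.inr h.symm
  calc ∑ y ∈ Q, (tch F K {y}).card
      ≤ ∑ y ∈ Q, ((tch F K Q).filter (fun e => y ∈ e)).card := Finset.sum_le_sum h1
    _ = ∑ e ∈ tch F K Q, (Q.filter (fun y => y ∈ e)).card := by
        simp only [Finset.card_filter]
        rw [Finset.sum_comm]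
    _ ≤ ∑ _e ∈ tch F K Q, 2 := by
        refine Finset.sum_le_sum ?_
        intro e _
        induction e using Sym2.ind with
        | _ u v =>
          refine (Finset.card_le_card (t := {u, v}) ?_).trans Finset.card_le_two
          intro y hy
          have := (Finset.mem_filter.1 hy).2
          rw [Sym2.mem_iff] at this
          simpa using this
    _ = 2 * (tch F K Q).card := by simp [mul_comm]

/-- The edges of a set are covered by the edges at its vertices. -/
lemma card_tch_le_sum (hQ : Q ⊆ K) : (tch F K Q).card ≤ ∑ y ∈ Q, (tch F K {y}).card := by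
  refine le_trans (Finset.card_le_card ?_) (Finset.card_biUnion_le (s := Q)
    (t := fun y => tch F K {y}))
  intro e he
  induction e using Sym2.ind with
  | _ u v =>
    obtain ⟨h1, h2, h3, h4⟩ := (mem_tch_pair hQ).1 he
    rcases h4 with h | h
    · refine Finset.mem_biUnion.2 ⟨u, h, ?_⟩
      exact (mem_tch_pair (by simpa using hQ h)).2 ⟨h1, h2, h3, Or.inl (by simp)⟩
    · refine Finset.mem_biUnion.2 ⟨v, h, ?_⟩
      exact (mem_tch_pair (by simpa using hQ h)).2 ⟨h1, h2, h3, Or.inr (by simp)⟩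

/-- In a block with at least two vertices each vertex has positive degree and
`|Q| l ≤ 2 e_Q (lam - 1)` for `Q ⊆ C`. -/
lemma MinBlock.single_neg (hb : MinBlock F l lam K C) (h2 : 2 ≤ C.card) {y : α} (hy : y ∈ C) :
    l < ((tch F K {y}).card : ℝ) * (lam - 1) := by
  have hne : ({y} : Finset α) ≠ C := by
    intro h
    rw [← h] at h2
    simp at h2
  have h := hb.neg {y} (by simpa using hy) (Finset.singleton_nonempty y) hne
  unfold sv at h
  simp only [Finset.card_singleton, Nat.cast_one, one_mul] at h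
  linarith

/-- A block with at least two vertices forces `1 ≤ lam`. -/
lemma MinBlock.one_le_lam (hb : MinBlock F l lam K C) (h2 : 2 ≤ C.card) : 1 ≤ lam := by
  by_contra hcon
  push Not at hcon
  have h0 := hb.nonneg
  unfold sv at h0
  have h1 : (((tch F K C).card : ℕ) : ℝ) ≤ ∑ y ∈ C, ((tch F K {y}).card : ℝ) := by
    exact_mod_cast card_tch_le_sum hb.sub
  have h3 : ∑ y ∈ C, (l - ((tch F K {y}).card : ℝ) * (lam - 1)) < 0 := by
    refine Finset.sum_neg ?_ hb.ne
    intro y hy
    have := hb.single_neg h2 hy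
    linarith
  rw [Finset.sum_sub_distrib, ← Finset.sum_mul] at h3
  simp only [Finset.sum_const, nsmul_eq_mul] at h3
  have h4 : ((tch F K C).card : ℝ) * (1 - lam) ≤
      (∑ y ∈ C, ((tch F K {y}).card : ℝ)) * (1 - lam) :=
    mul_le_mul_of_nonneg_right h1 (by linarith)
  nlinarith

lemma MinBlock.card_mul_le (hb : MinBlock F l lam K C) (h2 : 2 ≤ C.card) (hQ : Q ⊆ C) :
    (Q.card : ℝ) * l ≤ 2 * ((tch F K Q).card : ℝ) * (lam - 1) := by
  have hlam := hb.one_le_lam h2
  have h1 : ∑ y ∈ Q, l ≤ ∑ y ∈ Q, ((tch F K {y}).card : ℝ) * (lam - 1) :=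
    Finset.sum_le_sum fun y hy => (hb.single_neg h2 (hQ hy)).le
  rw [← Finset.sum_mul] at h1
  simp only [Finset.sum_const, nsmul_eq_mul] at h1
  have h3 : (∑ y ∈ Q, ((tch F K {y}).card : ℝ)) ≤ 2 * ((tch F K Q).card : ℝ) := by
    exact_mod_cast sum_tch_single_le (hQ.trans hb.sub)
  have h4 := mul_le_mul_of_nonneg_right h3 (show 0 ≤ lam - 1 by linarith)
  linarith

/-- `|Q| ≤ 2 e_Q`, using `lam ≤ l`, `1 ≤ l`. -/
lemma MinBlock.card_le (hb : MinBlock F l lam K C) (h2 : 2 ≤ C.card) (hQ : Q ⊆ C)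
    (hl : 1 ≤ l) (hlam : lam ≤ l) : (Q.card : ℝ) ≤ 2 * ((tch F K Q).card : ℝ) := by
  have h1 := hb.card_mul_le h2 hQ
  have h3 : (0 : ℝ) ≤ 2 * ((tch F K Q).card : ℝ) := by positivity
  have h4 : 2 * ((tch F K Q).card : ℝ) * (lam - 1) ≤ 2 * ((tch F K Q).card : ℝ) * l :=
    mul_le_mul_of_nonneg_left (by linarith) h3
  have h5 : (Q.card : ℝ) * l ≤ 2 * ((tch F K Q).card : ℝ) * l := h1.trans h4
  exact le_of_mul_le_mul_right h5 (by linarith)

/-- `(b - 1) l < m (lam - 1)`. -/
lemma MinBlock.sub_one_lt (hb : MinBlock F l lam K C) (h2 : 2 ≤ C.card) :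
    ((C.card : ℝ) - 1) * l < ((tch F K C).card : ℝ) * (lam - 1) := by
  have hlam := hb.one_le_lam h2
  obtain ⟨y, hy⟩ := hb.ne
  have hYsub : C.erase y ⊆ C := Finset.erase_subset _ _
  have hcard : (C.erase y).card = C.card - 1 := Finset.card_erase_of_mem hy
  have hne : (C.erase y).Nonempty := by
    rw [← Finset.card_pos, hcard]
    omega
  have hneq : C.erase y ≠ C := fun h => by
    have := Finset.mem_erase.1 (h ▸ hy)
    exact this.1 rfl
  have h := hb.neg _ hYsub hne hneq
  unfold sv at h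
  rw [hcard, Nat.cast_sub (by omega), Nat.cast_one] at h
  have h3 : ((tch F K (C.erase y)).card : ℝ) ≤ ((tch F K C).card : ℝ) := by
    exact_mod_cast Finset.card_le_card (tch_mono hYsub hb.sub)
  have h4 := mul_le_mul_of_nonneg_right h3 (show 0 ≤ lam - 1 by linarith)
  linarith

/-- `val < l - m`, i.e. `b l - m lam < l`. -/
lemma MinBlock.val_lt (hb : MinBlock F l lam K C) (h2 : 2 ≤ C.card) (hlam : 1 ≤ lam) :
    (C.card : ℝ) * l - ((tch F K C).card : ℝ) * lam < l := by
  have h := hb.sub_one_lt h2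
  have h3 : (0 : ℝ) ≤ ((tch F K C).card : ℝ) := by positivity
  nlinarith

/-- `val ≥ - m`. -/
lemma MinBlock.val_ge (hb : MinBlock F l lam K C) :
    - ((tch F K C).card : ℝ) ≤ (C.card : ℝ) * l - ((tch F K C).card : ℝ) * lam := by
  have h := hb.nonneg
  unfold sv at h
  linarith

/-- Every vertex of a block with at least two vertices has a neighbour in the block. -/
lemma MinBlock.exists_inner (hb : MinBlock F l lam K C) (h2 : 2 ≤ C.card) {x : α} (hx : x ∈ C) :
    ∃ y ∈ C, F.Adj x y := by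
  by_contra hcon
  push Not at hcon
  have hlam := hb.one_le_lam h2
  have hYsub : C.erase x ⊆ C := Finset.erase_subset _ _
  have hcard : (C.erase x).card = C.card - 1 := Finset.card_erase_of_mem hx
  have hne : (C.erase x).Nonempty := by
    rw [← Finset.card_pos, hcard]
    omega
  have hneq : C.erase x ≠ C := fun h => by
    have := Finset.mem_erase.1 (h ▸ hx)
    exact this.1 rfl
  have h3 := hb.neg _ hYsub hne hneq
  have h4 := hb.single_neg h2 hx
  have h5 := hb.nonneg
  unfold sv at h3 h5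
  rw [hcard, Nat.cast_sub (by omega), Nat.cast_one] at h3
  have hxK : ({x} : Finset α) ⊆ K := by simpa using hb.sub hx
  have hd : Disjoint (tch F K (C.erase x)) (tch F K {x}) := by
    rw [Finset.disjoint_left]
    intro e he1 he2
    induction e using Sym2.ind with
    | _ u v =>
      obtain ⟨a1, _, _, a4⟩ := (mem_tch_pair (hYsub.trans hb.sub)).1 he1
      obtain ⟨_, _, _, b4⟩ := (mem_tch_pair hxK).1 he2
      simp only [Finset.mem_singleton, Finset.mem_erase] at a4 b4
      rcases b4 with rfl | rfl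
      · rcases a4 with a | a
        · exact a.1 rfl
        · exact hcon v a.2 a1
      · rcases a4 with a | a
        · exact hcon u a.2 a1.symm
        · exact a.1 rfl
  have hsub : tch F K (C.erase x) ∪ tch F K {x} ⊆ tch F K C :=
    Finset.union_subset (tch_mono hYsub hb.sub) (tch_mono (by simpa using hx) hb.sub)
  have hc : (((tch F K (C.erase x)).card : ℕ) : ℝ) + ((tch F K {x}).card : ℝ) ≤
      ((tch F K C).card : ℝ) := by
    have := Finset.card_le_card hsub
    rw [Finset.card_union_of_disjoint hd] at this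
    exact_mod_cast this
  have h6 := mul_le_mul_of_nonneg_right hc (show 0 ≤ lam - 1 by linarith)
  nlinarith

/-- Existence of a minimal block. -/
lemma exists_minBlock (hK : K.Nonempty) (h0 : 0 ≤ sv F l lam K K) : ∃ C, MinBlock F l lam K C := by
  let 𝒞 := K.powerset.filter (fun Y => Y.Nonempty ∧ 0 ≤ sv F l lam K Y)
  have h𝒞 : 𝒞.Nonempty :=
    ⟨K, Finset.mem_filter.2 ⟨Finset.mem_powerset.2 (Finset.Subset.refl _), hK, h0⟩⟩
  obtain ⟨C, hC, hmin⟩ := Finset.exists_min_image 𝒞 Finset.card h𝒞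
  obtain ⟨h1, h2, h3⟩ := Finset.mem_filter.1 hC
  have h1' := Finset.mem_powerset.1 h1
  refine ⟨C, ⟨h2, h1', h3, ?_⟩⟩
  intro Y hY hYne hYC
  by_contra hcon
  push Not at hcon
  have hmem : Y ∈ 𝒞 := Finset.mem_filter.2
    ⟨Finset.mem_powerset.2 (hY.trans h1'), hYne, hcon⟩
  have h5 := hmin Y hmem
  have h6 : Y.card < C.card := Finset.card_lt_card (hY.ssubset_of_ne hYC)
  omega

/-- A block without edges is a single vertex (if `1 ≤ l`, `lam ≥ 1`). -/
lemma MinBlock.card_eq_one_of_m_zero (hb : MinBlock F l lam K C) (hl : 1 ≤ l) (hlam : 1 ≤ lam)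
    (hm : (tch F K C).card = 0) : C.card = 1 := by
  by_contra hcon
  have hpos : 0 < C.card := Finset.card_pos.2 hb.ne
  have h2 : 2 ≤ C.card := by omega
  obtain ⟨y, hy⟩ := hb.ne
  have h := hb.single_neg h2 hy
  have h3 : (tch F K {y}).card ≤ (tch F K C).card :=
    Finset.card_le_card (tch_mono (by simpa using hy) hb.sub)
  have h4 : (tch F K {y}).card = 0 := by omega
  rw [h4] at h
  simp only [Nat.cast_zero, zero_mul] at h
  linarith

/-- `m ≥ 1` and `b - 1 ≤ m` in a block with at least two vertices. -/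
lemma MinBlock.sub_one_le_m (hb : MinBlock F l lam K C) (h2 : 2 ≤ C.card) (hl : 1 ≤ l)
    (hlam : lam ≤ l) (hlam1 : 1 ≤ lam) : C.card - 1 ≤ (tch F K C).card := by
  have h := hb.sub_one_lt h2
  have h3 : (0 : ℝ) ≤ ((tch F K C).card : ℝ) := by positivity
  have h4 : ((tch F K C).card : ℝ) * (lam - 1) ≤ ((tch F K C).card : ℝ) * l :=
    mul_le_mul_of_nonneg_left (by linarith) h3
  have h5 : ((C.card : ℝ) - 1) * l < ((tch F K C).card : ℝ) * l := lt_of_lt_of_le h h4
  have h6 : (C.card : ℝ) - 1 < ((tch F K C).card : ℝ) :=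
    lt_of_mul_lt_mul_right h5 (by linarith)
  have h7 : C.card - 1 < (tch F K C).card := by
    have hc : ((C.card - 1 : ℕ) : ℝ) = (C.card : ℝ) - 1 := by
      rw [Nat.cast_sub (by omega), Nat.cast_one]
    rw [← hc] at h6
    exact_mod_cast h6
  exact h7.le

/-- `2 |U| ≥ |vs U|`. -/
lemma vs_card_le (U : Finset (Sym2 V)) : (vs U).card ≤ 2 * U.card := by
  unfold vs
  refine (Finset.card_biUnion_le).trans ?_
  calc ∑ e ∈ U, e.toFinset.card ≤ ∑ _e ∈ U, 2 := by
        refine Finset.sum_le_sum ?_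
        intro e _
        induction e using Sym2.ind with
        | _ a b =>
          have : (s(a, b) : Sym2 V).toFinset ⊆ {a, b} := by
            intro z hz
            rw [Sym2.mem_toFinset, Sym2.mem_iff] at hz
            simpa using hz
          exact (Finset.card_le_card this).trans Finset.card_le_two
    _ = 2 * U.card := by simp [mul_comm]

/-- `density_of_good` in logarithmic form. -/
lemma density_log (hG : GoodDensity n q H) (hs : Std n q l lam) (T : Finset (Sym2 V))
    (hT : ∀ e ∈ T, e ∈ H.edgeSet) : (T.card : ℝ) * lam ≤ ((vs T).card : ℝ) * l := by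
  rcases T.eq_empty_or_nonempty with rfl | hne
  · simp only [Finset.card_empty, Nat.cast_zero, zero_mul]
    have := hs.l1
    positivity
  · have h1 := density_of_good hG hs.q0 hs.q1 T hT hne
    have hn : (0 : ℝ) < n := by
      have := hs.n1
      exact_mod_cast this
    have hq := hs.q0
    have h3 := Real.log_le_log (by norm_num) h1
    rw [Real.log_one, Real.log_mul (by positivity) (by positivity), Real.log_pow,
      Real.log_pow] at h3
    rw [hs.lam_eq, hs.l_eq]
    change ((T.card : ℕ) : ℝ) * (- Real.log q) ≤ (((T.biUnion fun e => e.toFinset).card : ℕ) : ℝ) * Real.log n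
    linarith

end Vale.Agent.Lib.P064E
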