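import Vale.Agent.Lib.P064E.BlockDefs

/-!
Part H1: the numeric hypotheses.
-/

open Finset

namespace Vale.Agent.Lib.P064E

open Vale.Agent.Lib.P064
open scoped Classical

/-- The numeric hypotheses hold for large `l`, and `baseB l ^ A` is bounded by `(1 + l) ^ (A (1 + δ))`. -/
lemma exists_blockNum (δ : ℝ) (h0 : 0 < δ) (h1 : δ ≤ 1) :
    ∃ (b₁ : ℕ) (l₀ C₀ : ℝ), 1 ≤ l₀ ∧ 1 ≤ C₀ ∧ ∀ l : ℝ, l₀ ≤ l →
      BlockNum b₁ l δ ∧ baseB l ≤ C₀ * (1 + l) ^ (1 + δ) := by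
  sorry

end Vale.Agent.Lib.P064E
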