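import Vale.Agent.Lib.P064E.Chain
import Vale.Agent.Lib.P064E.FinalNum
import Vale.Agent.Lib.P064.Final

/-!
Part H: the final bounds.
-/

open Finset

namespace Vale.Agent.Lib.P064E

open Vale.Agent.Lib.P064
open scoped Classical

/-- `p̃_E` against `p_E`. -/
theorem pTilde_exp (ε : ℝ) (hε : 0 < ε) :
    ∃ C : ℝ, 0 < C ∧ ∀ n : ℕ, 2 ≤ n → ∀ (V : Type) [Fintype V] (H : SimpleGraph V),
      Fintype.card V ≤ n → H ≠ ⊥ →
      pTilde n H ≤ C * pE n H *
        (1 + Real.log n) ^ (min 1 (Real.log (1 / pE n H) / Real.log n + ε)) := by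
  sorry

/-- `p_c` against `p_E`. -/
theorem pc_exp (ε : ℝ) (hε : 0 < ε) :
    ∃ C : ℝ, 0 < C ∧ ∀ n : ℕ, 2 ≤ n → ∀ (V : Type) [Fintype V] (H : SimpleGraph V),
      Fintype.card V ≤ n → H ≠ ⊥ →
      pc n H ≤ C * pE n H * Real.log n *
        (1 + Real.log n) ^ (min 1 (Real.log (1 / pE n H) / Real.log n + ε)) := by
  sorry

end Vale.Agent.Lib.P064E
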