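import Vale.Agent.Lib.P064E.Facts

/-!
Part L1: the base of the level recursion.
-/

open Finset

namespace Vale.Agent.Lib.P064E

open Vale.Agent.Lib.P064
open scoped Classical

variable {V α : Type} [Fintype V] [Fintype α] {F : SimpleGraph α} {H : SimpleGraph V} {n : ℕ}
  {q l lam : ℝ} {K C : Finset α}

/-- `m ^ k ≤ k! e^m`; for `k ≤ s` also `m ^ k ≤ s ^ k e^m`. -/
lemma pow_le_pow_mul_exp {m : ℝ} (hm : 0 ≤ m) {k s : ℕ} (hks : k ≤ s) :
    m ^ k ≤ (s : ℝ) ^ k * Real.exp m := by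
  sorry

/-- The base of the recursion: crude count, `φ(y) ∈ vs U` for `y ∈ Q`, so at most `(2|U|)^|Q|` restrictions. -/
theorem level_base (hs : Std n q l lam) (hb : MinBlock F l lam K C) (h2 : 2 ≤ C.card)
    (s : ℕ) (hs1 : 1 ≤ s) :
    LevelBound F H l K C s (6 * l * s) 1 := by
  sorry

end Vale.Agent.Lib.P064E
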