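import Vale.Agent.Lib.P064E.Tree1

/-!
Part T2: the count of restrictions to a forest inside a set of edges.
-/

open Finset

namespace Vale.Agent.Lib.P064E

open Vale.Agent.Lib.P064
open scoped Classical

variable {V α : Type} [Fintype V] [Fintype α] {H : SimpleGraph V} {n : ℕ} {q l lam : ℝ}

/-- For an edge set `T` of `H`: `∏_{w ∈ W} (deg_T w + 1) ≤ exp (2 t l / lam)`, `t = |W|`. -/
theorem prod_deg_le (hG : GoodDensity n q H) (hs : Std n q l lam) (W : Finset V)
    (T : Finset (Sym2 V)) (hT : ∀ e ∈ T, e ∈ H.edgeSet) :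
    ∏ w ∈ W, (((W.filter fun w' => s(w, w') ∈ T).card : ℝ) + 1) ≤
      Real.exp (2 * (W.card : ℝ) * l / lam) := by
  have hlam0 : 0 < lam := by linarith [hs.lam1]
  set T' : Finset (Sym2 V) := T.filter (fun e => ∀ x ∈ e, x ∈ W) with hT'
  have hT'H : ∀ e ∈ T', e ∈ H.edgeSet := fun e he => hT e (Finset.mem_filter.1 he).1
  have hvs : vs T' ⊆ W := by
    intro x hx
    obtain ⟨e, he, hxe⟩ := Finset.mem_biUnion.1 hx
    exact (Finset.mem_filter.1 he).2 x (by simpa using hxe)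
  have hdens : (T'.card : ℝ) * lam ≤ (W.card : ℝ) * l := by
    have h1 := density_log hG hs T' hT'H
    have h2 : ((vs T').card : ℝ) ≤ W.card := by exact_mod_cast Finset.card_le_card hvs
    have hl0 : 0 ≤ l := by linarith [hs.l1]
    exact h1.trans (mul_le_mul_of_nonneg_right h2 hl0)
  -- the pairs
  set P : Finset (V × V) := (W ×ˢ W).filter (fun x => s(x.1, x.2) ∈ T) with hP
  have hsum : ∑ w ∈ W, (W.filter fun w' => s(w, w') ∈ T).card = P.card := by
    simp only [hP, Finset.card_filter, Finset.sum_product]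
  have hPT : P.card ≤ 2 * T'.card := by
    refine Finset.card_le_mul_card_image_of_maps_to (f := fun x : V × V => s(x.1, x.2)) ?_ 2 ?_
    · intro x hx
      obtain ⟨h1, h2⟩ := Finset.mem_filter.1 hx
      obtain ⟨h3, h4⟩ := Finset.mem_product.1 h1
      refine Finset.mem_filter.2 ⟨h2, ?_⟩
      intro y hy
      rcases Sym2.mem_iff.1 hy with rfl | rfl
      · exact h3
      · exact h4
    · intro e _
      induction e using Sym2.ind with
      | _ u v =>
        have hsub : P.filter (fun x => s(x.1, x.2) = s(u, v)) ⊆ {(u, v), (v, u)} := by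
          intro x hx
          have h1 := (Finset.mem_filter.1 hx).2
          rcases Sym2.eq_iff.1 h1 with ⟨h2, h3⟩ | ⟨h2, h3⟩
          · simp [Prod.ext_iff, h2, h3]
          · simp [Prod.ext_iff, h2, h3]
        exact (Finset.card_le_card hsub).trans Finset.card_le_two
  have hprod : ∏ w ∈ W, (((W.filter fun w' => s(w, w') ∈ T).card : ℝ) + 1) ≤
      ∏ w ∈ W, Real.exp ((W.filter fun w' => s(w, w') ∈ T).card : ℝ) := by
    refine Finset.prod_le_prod (fun _ _ => by positivity) ?_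
    intro w _
    have := Real.add_one_le_exp ((W.filter fun w' => s(w, w') ∈ T).card : ℝ)
    linarith
  refine hprod.trans ?_
  rw [← Real.exp_sum]
  apply Real.exp_le_exp.2
  rw [le_div_iff₀ hlam0]
  have h3 : ∑ w ∈ W, ((W.filter fun w' => s(w, w') ∈ T).card : ℝ) ≤ 2 * (T'.card : ℝ) := by
    have : ∑ w ∈ W, (W.filter fun w' => s(w, w') ∈ T).card ≤ 2 * T'.card := by
      rw [hsum]
      exact hPT
    exact_mod_cast this
  nlinarith

/-- The count of restrictions to `Q₀`, through the image sets: at most (number of image sets)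
times `t^|Lf| exp (2 t l / lam)`. -/
theorem forest_restrictions_sets (hG : GoodDensity n q H) (hs : Std n q l lam)
    {Q₀ Lf : Finset α} {p : α → α}
    (hclosed : ∀ x ∈ Q₀, p x ∈ Q₀) (hlf : Lf ⊆ Q₀)
    (hreach : ∀ T : Finset α, Lf ⊆ T → (∀ x ∈ T, x ∈ Q₀ → p x ∈ T) → Q₀ ⊆ T)
    (U : Finset (Sym2 V)) (hU : ∀ e ∈ U, e ∈ H.edgeSet) (𝓕 : Finset (α → V))
    (hinj : ∀ f ∈ 𝓕, Set.InjOn f Q₀)
    (hedge : ∀ f ∈ 𝓕, ∀ x ∈ Q₀, p x ≠ x → s(f x, f (p x)) ∈ U) :
    ((𝓕.image (proj Q₀)).card : ℝ) ≤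
      ((𝓕.image (fun f => Q₀.image f)).card : ℝ) * (Q₀.card : ℝ) ^ Lf.card *
        Real.exp (2 * (Q₀.card : ℝ) * l / lam) := by
  classical
  set I := 𝓕.image (fun f => Q₀.image f) with hI
  set Mx : ℝ := (Q₀.card : ℝ) ^ Lf.card * Real.exp (2 * (Q₀.card : ℝ) * l / lam) with hMx
  have hsub : 𝓕.image (proj Q₀) ⊆
      I.biUnion (fun W₀ => (𝓕.filter (fun f => Q₀.image f = W₀)).image (proj Q₀)) := by
    intro ψ hψ
    obtain ⟨f, hf, rfl⟩ := Finset.mem_image.1 hψ
    refine Finset.mem_biUnion.2 ⟨Q₀.image f, Finset.mem_image_of_mem _ hf, ?_⟩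
    exact Finset.mem_image_of_mem _ (Finset.mem_filter.2 ⟨hf, rfl⟩)
  have hfib : ∀ W₀ ∈ I,
      (((𝓕.filter (fun f => Q₀.image f = W₀)).image (proj Q₀)).card : ℝ) ≤ Mx := by
    intro W₀ hW₀
    obtain ⟨f₀, hf₀, rfl⟩ := Finset.mem_image.1 hW₀
    have hcard : (Q₀.image f₀).card = Q₀.card := Finset.card_image_of_injOn (hinj f₀ hf₀)
    have h1 := tree_count hclosed hlf hreach (Q₀.image f₀) U
      (𝓕.filter (fun f => Q₀.image f = Q₀.image f₀))
      (fun f hf => hinj f (Finset.mem_filter.1 hf).1)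
      (fun f hf => (Finset.mem_filter.1 hf).2)
      (fun f hf => hedge f (Finset.mem_filter.1 hf).1)
    have h2 := prod_deg_le hG hs (Q₀.image f₀) U hU
    rw [hcard] at h1 h2
    refine h1.trans ?_
    rw [hMx]
    exact mul_le_mul_of_nonneg_left h2 (by positivity)
  have h3 : ((𝓕.image (proj Q₀)).card : ℝ) ≤
      ∑ W₀ ∈ I, (((𝓕.filter (fun f => Q₀.image f = W₀)).image (proj Q₀)).card : ℝ) := by
    have h4 := (Finset.card_le_card hsub).trans Finset.card_biUnion_le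
    exact_mod_cast h4
  have h5 : ∑ W₀ ∈ I, (((𝓕.filter (fun f => Q₀.image f = W₀)).image (proj Q₀)).card : ℝ) ≤
      (I.card : ℝ) * Mx := by
    have := Finset.sum_le_sum hfib
    simpa [Finset.sum_const, nsmul_eq_mul] using this
  calc ((𝓕.image (proj Q₀)).card : ℝ) ≤ (I.card : ℝ) * Mx := h3.trans h5
    _ = _ := by rw [hMx]; ring

/-- The count of restrictions to `Q₀`: choose the image set `W₀ ⊆ vs U`, then use `tree_count` and
`prod_deg_le`. `𝓕` is a family of maps injective on `Q₀`, with `f (Q₀)` in `vs U`,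
and `s(f x, f (p x)) ∈ U` for non-roots. -/
theorem forest_restrictions (hG : GoodDensity n q H) (hs : Std n q l lam)
    {Q₀ Lf : Finset α} {p : α → α}
    (hclosed : ∀ x ∈ Q₀, p x ∈ Q₀) (hlf : Lf ⊆ Q₀)
    (hreach : ∀ T : Finset α, Lf ⊆ T → (∀ x ∈ T, x ∈ Q₀ → p x ∈ T) → Q₀ ⊆ T)
    (U : Finset (Sym2 V)) (hU : ∀ e ∈ U, e ∈ H.edgeSet) (𝓕 : Finset (α → V))
    (hinj : ∀ f ∈ 𝓕, Set.InjOn f Q₀) (hvs : ∀ f ∈ 𝓕, ∀ x ∈ Q₀, f x ∈ vs U)
    (hedge : ∀ f ∈ 𝓕, ∀ x ∈ Q₀, p x ≠ x → s(f x, f (p x)) ∈ U) :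
    ((𝓕.image (proj Q₀)).card : ℝ) ≤
      (((vs U).card.choose Q₀.card : ℕ) : ℝ) * (Q₀.card : ℝ) ^ Lf.card *
        Real.exp (2 * (Q₀.card : ℝ) * l / lam) := by
  classical
  have h1 := forest_restrictions_sets hG hs hclosed hlf hreach U hU 𝓕 hinj hedge
  refine h1.trans ?_
  have hsub : 𝓕.image (fun f => Q₀.image f) ⊆ (vs U).powersetCard Q₀.card := by
    intro W₀ hW₀
    obtain ⟨f, hf, rfl⟩ := Finset.mem_image.1 hW₀
    refine Finset.mem_powersetCard.2 ⟨?_, Finset.card_image_of_injOn (hinj f hf)⟩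
    intro w hw
    obtain ⟨x, hx, rfl⟩ := Finset.mem_image.1 hw
    exact hvs f hf x hx
  have h2 : ((𝓕.image (fun f => Q₀.image f)).card : ℝ) ≤ (((vs U).card.choose Q₀.card : ℕ) : ℝ) := by
    have := Finset.card_le_card hsub
    rw [Finset.card_powersetCard] at this
    exact_mod_cast this
  apply mul_le_mul_of_nonneg_right _ (Real.exp_pos _).le
  exact mul_le_mul_of_nonneg_right h2 (by positivity)

end Vale.Agent.Lib.P064E
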