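import Vale.Agent.Lib.P064E.Union2
import Vale.Agent.Lib.P064E.Dec
import Vale.Agent.Lib.P064E.Tree2
import Vale.Agent.Lib.P064E.LevelBase

/-!
Part L2: the step of the level recursion.
-/

open Finset

namespace Vale.Agent.Lib.P064E

open Vale.Agent.Lib.P064
open scoped Classical

variable {V α : Type} [Fintype V] [Fintype α] {F : SimpleGraph α} {H : SimpleGraph V} {n : ℕ}
  {q l lam : ℝ} {K C : Finset α}

/-- Restrictions to `D ∪ P` of a family agreeing on `D` are at most those to `P`. -/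
lemma card_image_proj_union_le {D P : Finset α} (S : Finset (α → V))
    (hag : ∀ φ ∈ S, ∀ φ' ∈ S, ∀ x ∈ D, φ x = φ' x) :
    (S.image (proj (D ∪ P))).card ≤ (S.image (proj P)).card := by
  refine Finset.card_le_card_of_injOn (res P) ?_ ?_
  · intro ψ hψ
    have hψ' := Finset.mem_coe.1 hψ
    obtain ⟨φ, hφ, rfl⟩ := Finset.mem_image.1 hψ'
    rw [res_proj Finset.subset_union_right]
    exact Finset.mem_coe.2 (Finset.mem_image_of_mem _ hφ)
  · intro ψ hψ ψ' hψ' h
    have h1 := Finset.mem_coe.1 hψ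
    have h2 := Finset.mem_coe.1 hψ'
    obtain ⟨φ, hφ, rfl⟩ := Finset.mem_image.1 h1
    obtain ⟨φ', hφ', rfl⟩ := Finset.mem_image.1 h2
    rw [res_proj Finset.subset_union_right, res_proj Finset.subset_union_right] at h
    funext x
    unfold proj
    by_cases hx : x ∈ D ∪ P
    · rw [if_pos hx, if_pos hx]
      rcases Finset.mem_union.1 hx with h3 | h3
      · rw [hag φ hφ φ' hφ' x h3]
      · have := proj_eq_apply h3 h
        rw [this]
    · rw [if_neg hx, if_neg hx]

/-- Numeric part for the forest: `choose v t ≤ (6 l)^t exp e` when `v ≤ 6 e l`. -/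
lemma choose_bound {v t : ℕ} {e : ℝ} (he : 0 ≤ e) (hl : 0 ≤ l) (hv : (v : ℝ) ≤ 6 * e * l) :
    ((v.choose t : ℕ) : ℝ) ≤ (6 * l) ^ t * Real.exp e := by
  have h1 : ((v.choose t : ℕ) : ℝ) ≤ (v : ℝ) ^ t / t.factorial := Nat.choose_le_pow_div t v
  have hfac : (0 : ℝ) < t.factorial := by positivity
  have h2 : e ^ t / t.factorial ≤ Real.exp e := Real.pow_div_factorial_le_exp e he t
  have h3 : (v : ℝ) ^ t ≤ (6 * e * l) ^ t := pow_le_pow_left₀ (Nat.cast_nonneg _) hv t
  calc ((v.choose t : ℕ) : ℝ) ≤ (v : ℝ) ^ t / t.factorial := h1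
    _ ≤ (6 * e * l) ^ t / t.factorial := by gcongr
    _ = (6 * l) ^ t * (e ^ t / t.factorial) := by
        rw [mul_assoc, mul_comm e l, ← mul_assoc, mul_pow]
        ring
    _ ≤ _ := by gcongr

/-- Numeric part for the sources: `t^L ≤ exp k`. -/
lemma sources_bound {t L k s s' : ℕ} (htk : t ≤ k) (hk1 : 1 ≤ k) (hks' : k ≤ s') (hL : s * L ≤ k)
    (hss : Real.log s' ≤ s) : (t : ℝ) ^ L ≤ Real.exp k := by
  have hk0 : (0 : ℝ) < k := by exact_mod_cast hk1
  have h1 : (t : ℝ) ^ L ≤ (k : ℝ) ^ L := pow_le_pow_left₀ (Nat.cast_nonneg _) (by exact_mod_cast htk) L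
  have h2 : (k : ℝ) ^ L = Real.exp (L * Real.log k) := by
    rw [Real.exp_nat_mul, Real.exp_log hk0]
  have h3 : Real.log k ≤ s := by
    refine le_trans (Real.log_le_log hk0 (by exact_mod_cast hks')) hss
  have h4 : (L : ℝ) * Real.log k ≤ k := by
    have h5 : (L : ℝ) * Real.log k ≤ L * s := mul_le_mul_of_nonneg_left h3 (Nat.cast_nonneg _)
    have h6 : (L : ℝ) * s ≤ k := by
      have : L * s ≤ k := by rw [mul_comm]; exact hL
      exact_mod_cast this
    linarith
  calc (t : ℝ) ^ L ≤ (k : ℝ) ^ L := h1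
    _ = Real.exp (L * Real.log k) := h2
    _ ≤ Real.exp k := Real.exp_le_exp.2 h4

/-- Numeric part: `exp (2 t l / lam) ≤ exp (4 e)`. -/
lemma forest_exp_bound {t k : ℕ} {e : ℝ} (hl : 0 < l) (hlam : 1 ≤ lam) (htk : t ≤ k) (he : 0 ≤ e)
    (hk : (k : ℝ) * l ≤ 2 * e * (lam - 1)) :
    Real.exp (2 * (t : ℝ) * l / lam) ≤ Real.exp (4 * e) := by
  apply Real.exp_le_exp.2
  have hlam0 : 0 < lam := by linarith
  rw [div_le_iff₀ hlam0]
  have h1 : (t : ℝ) * l ≤ (k : ℝ) * l :=
    mul_le_mul_of_nonneg_right (by exact_mod_cast htk) hl.le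
  nlinarith

/-- The edges touching different parts are different. -/
lemma sum_tch_parts_le {Q Q₀ : Finset α} {parts : Finset (Finset α)} (hQK : Q ⊆ K)
    (hsub : ∀ P ∈ parts, P ⊆ Q \ Q₀)
    (hdis : ∀ P ∈ parts, ∀ P' ∈ parts, P ≠ P' → Disjoint P P')
    (hna : ∀ P ∈ parts, ∀ P' ∈ parts, P ≠ P' → ∀ x ∈ P, ∀ y ∈ P', ¬ F.Adj x y) :
    ∑ P ∈ parts, (tch F K P).card ≤ (tch F K Q).card := by
  have hPQ : ∀ P ∈ parts, P ⊆ Q := fun P hP =>
    (hsub P hP).trans Finset.sdiff_subset
  have h1 : parts.biUnion (fun P => tch F K P) ⊆ tch F K Q := by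
    intro e he
    obtain ⟨P, hP, heP⟩ := Finset.mem_biUnion.1 he
    exact tch_mono (hPQ P hP) hQK heP
  have h2 : (parts.biUnion (fun P => tch F K P)).card = ∑ P ∈ parts, (tch F K P).card := by
    refine Finset.card_biUnion ?_
    intro P hP P' hP' hne
    change Disjoint (tch F K P) (tch F K P')
    rw [Finset.disjoint_left]
    intro e he he'
    induction e using Sym2.ind with
    | _ u v =>
      have hPK := (hPQ P hP).trans hQK
      have hPK' := (hPQ P' hP').trans hQK
      obtain ⟨h3, _, _, h4⟩ := (mem_tch_pair hPK).1 he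
      obtain ⟨_, _, _, h5⟩ := (mem_tch_pair hPK').1 he'
      have hd := hdis P hP P' hP' hne
      rcases h4 with h4 | h4 <;> rcases h5 with h5 | h5
      · exact (Finset.disjoint_left.1 hd h4) h5
      · exact hna P hP P' hP' hne u h4 v h5 h3
      · exact hna P hP P' hP' hne v h4 u h5 h3.symm
      · exact (Finset.disjoint_left.1 hd h4) h5
  rw [← h2]
  exact Finset.card_le_card h1

/-- The recursion step: `Q` with `s < |Q| ≤ s'`, `log s' ≤ s`. Take the decomposition with `s₀ = s`;
count restrictions to `Q₀` by `forest_restrictions`, then add the parts one at a time,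
with `local_union` and the hypothesis for the parts. -/
theorem level_step (hG : GoodDensity n q H) (hs : Std n q l lam) (hb : MinBlock F l lam K C)
    (h2 : 2 ≤ C.card) {s s' : ℕ} (hs1 : 1 ≤ s) (hss : Real.log s' ≤ s) {B c : ℝ}
    (hB : 6 * l ≤ B) (hc : 0 ≤ c)
    (hlev : LevelBound F H l K C s B c) :
    LevelBound F H l K C s' B (c + 7) := by
  intro Q hQC hQne hQs' S U hemb hag hUH hSU hUcard
  have hl1 := hs.l1
  have hl0 : 0 < l := by linarith
  have hB0 : 0 < B := by linarith
  have hQK : Q ⊆ K := hQC.trans hb.sub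
  set e : ℝ := ((tch F K Q).card : ℝ) with he
  have he0 : 0 ≤ e := Nat.cast_nonneg _
  by_cases hQs : Q.card ≤ s
  · refine (hlev Q hQC hQne hQs S U hemb hag hUH hSU hUcard).trans ?_
    have : Real.exp (c * e) ≤ Real.exp ((c + 7) * e) := by
      apply Real.exp_le_exp.2
      nlinarith
    exact mul_le_mul_of_nonneg_left this (by positivity)
  push Not at hQs
  obtain ⟨Q₀, Lf, p, parts, hd⟩ := exists_treeDec F Q s hs1
  have hk1 : 1 ≤ Q.card := Finset.card_pos.2 hQne
  have hke : (Q.card : ℝ) ≤ 2 * e := hb.card_le h2 hQC hl1 hs.lam_le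
  have hkl : (Q.card : ℝ) * l ≤ 2 * e * (lam - 1) := hb.card_mul_le h2 hQC
  have hQ₀Q : Q₀ ⊆ Q := hd.sub
  have ht : Q₀.card ≤ Q.card := Finset.card_le_card hQ₀Q
  have hclosed : ∀ x ∈ Q₀, p x ∈ Q₀ := by
    intro x hx
    rcases hd.padj x hx with h | h
    · rw [h]
      exact hx
    · exact h.1
  have hinj : ∀ f ∈ S, Set.InjOn f Q₀ := fun f hf => (hemb f hf).1.injOn
  have hedgeQ : ∀ f ∈ S, ∀ x y, x ∈ Q → y ∈ K → F.Adj x y → s(f x, f y) ∈ U := by
    intro f hf x y hx hy hxy
    apply hSU f hf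
    exact Finset.mem_image.2 ⟨s(x, y), (mem_tch_pair hQK).2 ⟨hxy, hQK hx, hy, Or.inl hx⟩, rfl⟩
  have hvs : ∀ f ∈ S, ∀ x ∈ Q₀, f x ∈ vs U := by
    intro f hf x hx
    obtain ⟨y, hy, hxy⟩ := hb.exists_inner h2 (hQC (hQ₀Q hx))
    have h3 := hedgeQ f hf x y (hQ₀Q hx) (hb.sub hy) hxy
    exact Finset.mem_biUnion.2 ⟨_, h3, by simp⟩
  have hedge : ∀ f ∈ S, ∀ x ∈ Q₀, p x ≠ x → s(f x, f (p x)) ∈ U := by
    intro f hf x hx hne
    rcases hd.padj x hx with h | h
    · exact absurd h hne
    · exact hedgeQ f hf x (p x) (hQ₀Q hx) (hQK (hQ₀Q h.1)) h.2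
  have hfor := forest_restrictions hG hs hclosed hd.lf_sub hd.reach U hUH S hinj hvs hedge
  have hv : ((vs U).card : ℝ) ≤ 6 * e * l := by
    have h3 : ((vs U).card : ℝ) ≤ 2 * (U.card : ℝ) := by exact_mod_cast vs_card_le U
    have h4 : 3 * e * l = 3 * ((tch F K Q).card : ℝ) * l := by rw [he]
    nlinarith
  have hch := choose_bound (t := Q₀.card) he0 hl0.le hv
  have hL : s * Lf.card ≤ Q.card := hd.lf_card
  have hsrc := sources_bound (t := Q₀.card) ht hk1 hQs' hL hss
  have hfx := forest_exp_bound hl0 hs.lam1 ht he0 hkl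
  have hexpk : Real.exp (Q.card : ℝ) ≤ Real.exp (2 * e) := Real.exp_le_exp.2 hke
  have hQ₀count : ((S.image (proj Q₀)).card : ℝ) ≤ (6 * l) ^ Q₀.card * Real.exp (7 * e) := by
    refine hfor.trans ?_
    calc (((vs U).card.choose Q₀.card : ℕ) : ℝ) * (Q₀.card : ℝ) ^ Lf.card *
          Real.exp (2 * (Q₀.card : ℝ) * l / lam)
        ≤ ((6 * l) ^ Q₀.card * Real.exp e) * Real.exp (2 * e) * Real.exp (4 * e) := by
          apply mul_le_mul _ hfx (Real.exp_pos _).le (by positivity)
          exact mul_le_mul hch (hsrc.trans hexpk) (by positivity) (by positivity)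
      _ = _ := by
          rw [show (7 : ℝ) * e = e + 2 * e + 4 * e by ring, Real.exp_add, Real.exp_add]
          ring
  -- the parts
  have key : ∀ Pp : Finset (Finset α), Pp ⊆ parts →
      ((S.image (proj (Q₀ ∪ Pp.biUnion id))).card : ℝ) ≤
        (∏ P ∈ Pp, (B ^ P.card * Real.exp (c * ((tch F K P).card : ℝ)))) *
          (S.image (proj Q₀)).card := by
    intro Pp
    induction Pp using Finset.induction_on with
    | empty =>
      intro _
      simp
    | insert P Pp' hP ih =>
      intro hsub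
      have hPparts : P ∈ parts := hsub (Finset.mem_insert_self _ _)
      have ih' := ih ((Finset.subset_insert _ _).trans hsub)
      obtain ⟨hPsub, hPne, hPcard⟩ := hd.parts_sub P hPparts
      have hPQ : P ⊆ Q := hPsub.trans Finset.sdiff_subset
      have hPK : P ⊆ K := hPQ.trans hQK
      have hPC' : P ⊆ C := hPQ.trans hQC
      have hPneC : P ≠ C := by
        rintro rfl
        have := Finset.card_le_card hQC
        omega
      set D := Q₀ ∪ Pp'.biUnion id with hDdef
      have hD' : Q₀ ∪ (insert P Pp').biUnion id = D ∪ P := by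
        ext x
        simp only [hDdef, Finset.mem_union, Finset.mem_biUnion, Finset.mem_insert, id]
        constructor
        · rintro (h | ⟨P', h1 | h1, h2⟩)
          · exact Or.inl (Or.inl h)
          · exact Or.inr (h1 ▸ h2)
          · exact Or.inl (Or.inr ⟨P', h1, h2⟩)
        · rintro ((h | ⟨P', h1, h2⟩) | h)
          · exact Or.inl h
          · exact Or.inr ⟨P', Or.inr h1, h2⟩
          · exact Or.inr ⟨P, Or.inl rfl, h⟩
      rw [hD', Finset.prod_insert hP]
      have hBP : 0 ≤ B ^ P.card * Real.exp (c * ((tch F K P).card : ℝ)) := by positivity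
      have hstep := card_image_proj_step_real S (Finset.subset_union_left : D ⊆ D ∪ P) hBP ?_
      · calc ((S.image (proj (D ∪ P))).card : ℝ)
            ≤ (B ^ P.card * Real.exp (c * ((tch F K P).card : ℝ))) * (S.image (proj D)).card := hstep
          _ ≤ (B ^ P.card * Real.exp (c * ((tch F K P).card : ℝ))) *
              ((∏ P ∈ Pp', (B ^ P.card * Real.exp (c * ((tch F K P).card : ℝ)))) *
                (S.image (proj Q₀)).card) := mul_le_mul_of_nonneg_left ih' hBP
          _ = _ := by ring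
      · intro φ₀ hφ₀
        set fib := S.filter (fun φ => proj D φ = proj D φ₀) with hfib
        have hfibS : fib ⊆ S := Finset.filter_subset _ _
        have hfibD : ∀ φ ∈ fib, ∀ x ∈ D, φ x = φ₀ x := fun φ hφ x hx =>
          proj_eq_apply hx (Finset.mem_filter.1 hφ).2
        have hagD : ∀ φ ∈ fib, ∀ φ' ∈ fib, ∀ x ∈ D, φ x = φ' x := fun φ hφ φ' hφ' x hx => by
          rw [hfibD φ hφ x hx, hfibD φ' hφ' x hx]
        have h1 := card_image_proj_union_le (P := P) fib hagD
        have hembf : ∀ φ ∈ fib, IsEmb F H φ := fun φ hφ => hemb φ (hfibS hφ)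
        have hagatt : ∀ φ ∈ fib, ∀ φ' ∈ fib, ∀ x ∈ att F K P, φ x = φ' x := by
          intro φ hφ φ' hφ' x hx
          obtain ⟨hxK, hxP, c', hc', hadj⟩ := mem_att.1 hx
          by_cases hxQ : x ∈ Q
          · by_cases hxQ₀ : x ∈ Q₀
            · exact hagD φ hφ φ' hφ' x (Finset.mem_union_left _ hxQ₀)
            · exfalso
              obtain ⟨P', hP', hxP'⟩ := hd.parts_cover x (Finset.mem_sdiff.2 ⟨hxQ, hxQ₀⟩)
              by_cases hPP' : P = P'
              · exact hxP (hPP' ▸ hxP')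
              · exact hd.parts_nonadj P hPparts P' hP' hPP' c' hc' x hxP' hadj
          · refine hag φ (hfibS hφ) φ' (hfibS hφ') x ?_
            exact mem_att.2 ⟨hxK, hxQ, c', hPQ hc', hadj⟩
        have hU' : ∀ e ∈ fib.biUnion (tchIm F K P), e ∈ H.edgeSet := fun e he =>
          union_edges fib hembf hPK ∅ (by simp) e (by simpa using he)
        have hcard := local_union hG hs hb hPC' hPne hPneC fib hembf hagatt
        have hcard3 : ((fib.biUnion (tchIm F K P)).card : ℝ) ≤
            3 * ((tch F K P).card : ℝ) * l := by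
          have h3 : (0 : ℝ) ≤ ((tch F K P).card : ℝ) * l := by positivity
          linarith
        have h2 := hlev P hPC' hPne hPcard fib (fib.biUnion (tchIm F K P)) hembf hagatt hU'
          (fun φ hφ => Finset.subset_biUnion_of_mem (tchIm F K P) hφ) hcard3
        exact le_trans (by exact_mod_cast h1) h2
  have hQeq : Q₀ ∪ parts.biUnion id = Q := by
    ext x
    simp only [Finset.mem_union, Finset.mem_biUnion, id]
    constructor
    · rintro (h | ⟨P, hP, hx⟩)
      · exact hQ₀Q h
      · exact Finset.sdiff_subset ((hd.parts_sub P hP).1 hx)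
    · intro hx
      by_cases hx0 : x ∈ Q₀
      · exact Or.inl hx0
      · exact Or.inr (hd.parts_cover x (Finset.mem_sdiff.2 ⟨hx, hx0⟩))
  have hmain := key parts (Finset.Subset.refl _)
  rw [hQeq] at hmain
  have hcardsum : ∑ P ∈ parts, P.card = Q.card - Q₀.card := by
    have h3 : (parts.biUnion id).card = ∑ P ∈ parts, (id P).card :=
      Finset.card_biUnion (fun P hP P' hP' hne => hd.parts_disj P hP P' hP' hne)
    have h4 : parts.biUnion id = Q \ Q₀ := by
      ext x
      simp only [Finset.mem_biUnion, id]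
      constructor
      · rintro ⟨P, hP, hx⟩
        exact (hd.parts_sub P hP).1 hx
      · exact hd.parts_cover x
    rw [h4, Finset.card_sdiff_of_subset hQ₀Q] at h3
    simpa using h3.symm
  have htchsum := sum_tch_parts_le (F := F) hQK (fun P hP => (hd.parts_sub P hP).1) hd.parts_disj
    hd.parts_nonadj
  have htchsum' : ∑ P ∈ parts, ((tch F K P).card : ℝ) ≤ e := by
    rw [he]
    exact_mod_cast htchsum
  have hprod : (∏ P ∈ parts, (B ^ P.card * Real.exp (c * ((tch F K P).card : ℝ)))) ≤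
      B ^ (Q.card - Q₀.card) * Real.exp (c * e) := by
    rw [Finset.prod_mul_distrib, Finset.prod_pow_eq_pow_sum, hcardsum, ← Real.exp_sum,
      ← Finset.mul_sum]
    gcongr
  have hfin : (6 * l) ^ Q₀.card ≤ B ^ Q₀.card := pow_le_pow_left₀ (by positivity) hB _
  calc ((S.image (proj Q)).card : ℝ)
      ≤ (∏ P ∈ parts, (B ^ P.card * Real.exp (c * ((tch F K P).card : ℝ)))) *
          (S.image (proj Q₀)).card := hmain
    _ ≤ (B ^ (Q.card - Q₀.card) * Real.exp (c * e)) * (B ^ Q₀.card * Real.exp (7 * e)) := by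
        apply mul_le_mul hprod (hQ₀count.trans _) (Nat.cast_nonneg _) (by positivity)
        exact mul_le_mul_of_nonneg_right hfin (Real.exp_pos _).le
    _ = B ^ Q.card * Real.exp ((c + 7) * e) := by
        have h3 : B ^ Q.card = B ^ (Q.card - Q₀.card) * B ^ Q₀.card := by
          rw [← pow_add]
          congr 1
          omega
        rw [h3, show (c + 7) * e = c * e + 7 * e by ring, Real.exp_add]
        ring

end Vale.Agent.Lib.P064E
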