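import Vale.Agent.Lib.P064E.LevelStep

/-!
Part L3: three levels.
-/

open Finset

namespace Vale.Agent.Lib.P064E

open Vale.Agent.Lib.P064
open scoped Classical

variable {V α : Type} [Fintype V] [Fintype α] {F : SimpleGraph α} {H : SimpleGraph V} {n : ℕ}
  {q l lam : ℝ} {K C : Finset α}

/-- The scale. -/
noncomputable def scale (l : ℝ) : ℕ := ⌈Real.log (l + 1)⌉₊ + 1

/-- The base used in the final count. -/
noncomputable def baseB (l : ℝ) : ℝ := 6 * l * (scale l : ℝ)

/-- The final count: three levels. -/
theorem level_top (hG : GoodDensity n q H) (hs : Std n q l lam) (hb : MinBlock F l lam K C)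
    (h2 : 2 ≤ C.card) :
    LevelBound F H l K C n (baseB l) 15 := by
  sorry

end Vale.Agent.Lib.P064E
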