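import Vale.Agent.Lib.P064E.Facts

/-!
Part U1: the potential lemma. Adding an embedding whose new vertices form a set of negative value
lowers the potential.
-/

open Finset

namespace Vale.Agent.Lib.P064E

open Vale.Agent.Lib.P064
open scoped Classical

variable {V α : Type} [Fintype V] [Fintype α] {F : SimpleGraph α} {H : SimpleGraph V} {n : ℕ}
  {q l lam : ℝ} {K Q C : Finset α}

/-- One step of the potential induction, purely on counts. -/
private lemma step_num {a b c d y t A0 U0 l lam : ℝ} (hlam : 1 ≤ lam)
    (hinv : a * l - b * lam ≤ A0 * l - U0 * lam - (b - U0))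
    (hv : (c - a) * l ≤ t * (lam - 1)) (ht : t ≤ d - b) (_hd : b ≤ d) (_hy : y = y) :
    c * l - d * lam ≤ A0 * l - U0 * lam - (d - U0) := by
  have h1 : t * (lam - 1) ≤ (d - b) * (lam - 1) :=
    mul_le_mul_of_nonneg_right ht (by linarith)
  nlinarith

/-- Let `A` be a vertex set and `U₀` a set of edges of `H` inside `A`. Let `S` be a family of
embeddings sending `att F K Q` into `A`, such that for each `φ ∈ S` every nonempty `Y ⊆ Q` with
`φ Y` off `A` has `|Y| l ≤ e_Y (lam - 1)`. Then the union `U` of `U₀` and all `φ (tch F K Q)`
has `|U| - |U₀| ≤ |A| l - |U₀| lam`. -/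
theorem union_bound (hG : GoodDensity n q H) (hs : Std n q l lam) (hQK : Q ⊆ K)
    (S : Finset (α → V)) (hemb : ∀ φ ∈ S, IsEmb F H φ)
    (A : Finset V) (U₀ : Finset (Sym2 V))
    (hU₀ : ∀ e ∈ U₀, e ∈ H.edgeSet) (hU₀A : ∀ e ∈ U₀, ∀ x ∈ e, x ∈ A)
    (hatt : ∀ φ ∈ S, ∀ x ∈ att F K Q, φ x ∈ A)
    (hneg : ∀ φ ∈ S, ∀ Y ⊆ Q, Y.Nonempty → (∀ y ∈ Y, φ y ∉ A) →
      (Y.card : ℝ) * l ≤ ((tch F K Y).card : ℝ) * (lam - 1)) :
    (((U₀ ∪ S.biUnion (tchIm F K Q)).card : ℝ) - U₀.card) ≤
      (A.card : ℝ) * l - (U₀.card : ℝ) * lam := by
  have hl : 0 ≤ l := by linarith [hs.l1]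
  have hlam := hs.lam1
  -- vertices and edges of a subfamily
  let VT : Finset (α → V) → Finset V := fun T => A ∪ T.biUnion fun φ => Q.image φ
  let UT : Finset (α → V) → Finset (Sym2 V) := fun T => U₀ ∪ T.biUnion (tchIm F K Q)
  -- endpoints of the edges of `UT T`
  have hends : ∀ T ⊆ S, ∀ e ∈ UT T, ∀ x ∈ e, x ∈ VT T := by
    intro T hT e he x hx
    rcases Finset.mem_union.1 he with he | he
    · exact Finset.mem_union_left _ (hU₀A e he x hx)
    · obtain ⟨φ, hφ, he'⟩ := Finset.mem_biUnion.1 he
      obtain ⟨e', he'', rfl⟩ := Finset.mem_image.1 he'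
      induction e' using Sym2.ind with
      | _ u v =>
        obtain ⟨_, hu, hv, _⟩ := newE_spec he''
        have key : ∀ a : α, (a ∈ Q ∨ a ∈ core F (K \ Q) Q) → φ a ∈ VT T := by
          intro a ha
          rcases ha with ha | ha
          · exact Finset.mem_union_right _
              (Finset.mem_biUnion.2 ⟨φ, hφ, Finset.mem_image_of_mem _ ha⟩)
          · exact Finset.mem_union_left _ (hatt φ (hT hφ) a ha)
        rw [Sym2.map_mk, Sym2.mem_iff] at hx
        rcases hx with rfl | rfl
        · exact key u hu
        · exact key v hv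
  -- edges of `UT T` are edges of `H`
  have hedges : ∀ T ⊆ S, ∀ e ∈ UT T, e ∈ H.edgeSet := by
    intro T hT e he
    rcases Finset.mem_union.1 he with he | he
    · exact hU₀ e he
    · obtain ⟨φ, hφ, he'⟩ := Finset.mem_biUnion.1 he
      obtain ⟨e', he'', rfl⟩ := Finset.mem_image.1 he'
      induction e' using Sym2.ind with
      | _ u v =>
        obtain ⟨h1, _, _, _⟩ := newE_spec he''
        rw [Sym2.map_mk, SimpleGraph.mem_edgeSet]
        exact (hemb φ (hT hφ)).2 u v h1
  -- the invariant
  have hinv : ∀ T ⊆ S, ((VT T).card : ℝ) * l - ((UT T).card : ℝ) * lam ≤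
      (A.card : ℝ) * l - (U₀.card : ℝ) * lam - (((UT T).card : ℝ) - U₀.card) := by
    intro T
    induction T using Finset.induction_on with
    | empty =>
      intro _
      have h1 : VT ∅ = A := by simp [VT]
      have h2 : UT ∅ = U₀ := by simp [UT]
      rw [h1, h2]
      simp
    | insert φ T hφT ih =>
      intro hT
      have hTS : T ⊆ S := fun x hx => hT (Finset.mem_insert_of_mem hx)
      have hφS : φ ∈ S := hT (Finset.mem_insert_self _ _)
      have ih' := ih hTS
      have hVeq : VT (insert φ T) = VT T ∪ Q.image φ := by
        simp only [VT, Finset.biUnion_insert]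
        ext x; simp only [Finset.mem_union]; tauto
      have hUeq : UT (insert φ T) = UT T ∪ tchIm F K Q φ := by
        simp only [UT, Finset.biUnion_insert]
        ext x; simp only [Finset.mem_union]; tauto
      have hUle : (UT T).card ≤ (UT (insert φ T)).card := by
        rw [hUeq]; exact Finset.card_le_card Finset.subset_union_left
      set W := VT T with hW
      set Y := Q.filter fun y => φ y ∉ W with hY
      have hYQ : Y ⊆ Q := Finset.filter_subset _ _
      have hVle : ((VT (insert φ T)).card : ℝ) ≤ (W.card : ℝ) + Y.card := by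
        rw [hVeq]
        have hsub : W ∪ Q.image φ ⊆ W ∪ Y.image φ := by
          intro x hx
          rcases Finset.mem_union.1 hx with hx | hx
          · exact Finset.mem_union_left _ hx
          · obtain ⟨y, hy, rfl⟩ := Finset.mem_image.1 hx
            by_cases hyW : φ y ∈ W
            · exact Finset.mem_union_left _ hyW
            · exact Finset.mem_union_right _
                (Finset.mem_image_of_mem _ (Finset.mem_filter.2 ⟨hy, hyW⟩))
        have h1 := Finset.card_le_card hsub
        have h2 := Finset.card_union_le W (Y.image φ)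
        have h3 : (Y.image φ).card ≤ Y.card := Finset.card_image_le
        have : (W ∪ Q.image φ).card ≤ W.card + Y.card := by omega
        exact_mod_cast this
      rcases Y.eq_empty_or_nonempty with hYe | hYne
      · -- no new vertices
        have hv0 : ((VT (insert φ T)).card : ℝ) ≤ (W.card : ℝ) := by
          rw [hYe] at hVle; simpa using hVle
        refine step_num (t := 0) (y := 0) hlam ih' ?_ ?_ ?_ rfl
        · have : (((VT (insert φ T)).card : ℝ) - W.card) * l ≤ 0 :=
            mul_nonpos_of_nonpos_of_nonneg (by linarith) hl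
          simpa using this
        · have : ((UT T).card : ℝ) ≤ (UT (insert φ T)).card := by exact_mod_cast hUle
          linarith
        · exact_mod_cast hUle
      · -- new vertices: the edges at them are new
        have hAoff : ∀ y ∈ Y, φ y ∉ A := by
          intro y hy hyA
          exact (Finset.mem_filter.1 hy).2 (Finset.mem_union_left _ hyA)
        have hval := hneg φ hφS Y hYQ hYne hAoff
        have hYK : Y ⊆ K := hYQ.trans hQK
        have hinj := (hemb φ hφS).1
        have hnew : ((tch F K Y).card : ℝ) ≤
            ((UT (insert φ T)).card : ℝ) - (UT T).card := by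
          have hcard : (tchIm F K Y φ).card = (tch F K Y).card :=
            Finset.card_image_of_injective _ (Sym2.map.injective hinj)
          have hdisj : Disjoint (tchIm F K Y φ) (UT T) := by
            rw [Finset.disjoint_left]
            intro e he he'
            obtain ⟨e', he'', rfl⟩ := Finset.mem_image.1 he
            induction e' using Sym2.ind with
            | _ u v =>
              obtain ⟨_, _, _, huv⟩ := (mem_tch_pair hYK).1 he''
              rw [Sym2.map_mk] at he'
              rcases huv with hu | hv
              · exact (Finset.mem_filter.1 hu).2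
                  (hends T hTS _ he' (φ u) (Sym2.mem_mk_left _ _))
              · exact (Finset.mem_filter.1 hv).2
                  (hends T hTS _ he' (φ v) (Sym2.mem_mk_right _ _))
          have hsub : UT T ∪ tchIm F K Y φ ⊆ UT (insert φ T) := by
            rw [hUeq]
            apply Finset.union_subset_union_right
            exact Finset.image_subset_image (tch_mono hYQ hQK)
          have h1 := Finset.card_le_card hsub
          rw [Finset.card_union_of_disjoint hdisj.symm, hcard] at h1
          have h2 : (((UT T).card + (tch F K Y).card : ℕ) : ℝ) ≤ (UT (insert φ T)).card := by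
            exact_mod_cast h1
          push_cast at h2
          linarith
        refine step_num (t := ((tch F K Y).card : ℝ)) (y := 0) hlam ih' ?_ hnew ?_ rfl
        · have h1 : (((VT (insert φ T)).card : ℝ) - W.card) * l ≤ (Y.card : ℝ) * l :=
            mul_le_mul_of_nonneg_right (by linarith) hl
          linarith
        · exact_mod_cast hUle
  -- the end
  have hS := hinv S (Finset.Subset.refl _)
  have hden := density_log hG hs (UT S) (hedges S (Finset.Subset.refl _))
  have hvs : ((vs (UT S)).card : ℝ) ≤ (VT S).card := by
    have : vs (UT S) ⊆ VT S := by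
      intro x hx
      obtain ⟨e, he, hxe⟩ := Finset.mem_biUnion.1 hx
      exact hends S (Finset.Subset.refl _) e he x (Sym2.mem_toFinset.1 hxe)
    exact_mod_cast Finset.card_le_card this
  have h1 : ((vs (UT S)).card : ℝ) * l ≤ ((VT S).card : ℝ) * l :=
    mul_le_mul_of_nonneg_right hvs hl
  have h2 : ((UT S).card : ℝ) = ((U₀ ∪ S.biUnion (tchIm F K Q)).card : ℝ) := rfl
  linarith

end Vale.Agent.Lib.P064E
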