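import Vale.Agent.Lib.P064E.Union1

/-!
Part U2: the three forms of the potential lemma used below.
-/

open Finset

namespace Vale.Agent.Lib.P064E

open Vale.Agent.Lib.P064
open scoped Classical

variable {V α : Type} [Fintype V] [Fintype α] {F : SimpleGraph α} {H : SimpleGraph V} {n : ℕ}
  {q l lam : ℝ} {K Q C : Finset α}

/-- An edge of `tchIm` is an image of an edge. -/
lemma tchIm_edge {φ : α → V} (hφ : IsEmb F H φ) (hQK : Q ⊆ K) {e : Sym2 V}
    (he : e ∈ tchIm F K Q φ) : e ∈ H.edgeSet := by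
  obtain ⟨e', he', rfl⟩ := Finset.mem_image.1 he
  induction e' using Sym2.ind with
  | _ u v =>
    obtain ⟨h1, _, _, _⟩ := (mem_tch_pair hQK).1 he'
    simp only [Sym2.map_mk]
    exact hφ.2 u v h1

/-- Edges of the union are edges of `H`. -/
lemma union_edges (S : Finset (α → V)) (hemb : ∀ φ ∈ S, IsEmb F H φ) (hQK : Q ⊆ K)
    (U₀ : Finset (Sym2 V)) (hU₀ : ∀ e ∈ U₀, e ∈ H.edgeSet) :
    ∀ e ∈ U₀ ∪ S.biUnion (tchIm F K Q), e ∈ H.edgeSet := by
  intro e he
  rcases Finset.mem_union.1 he with h | h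
  · exact hU₀ e h
  · obtain ⟨φ, hφ, heφ⟩ := Finset.mem_biUnion.1 h
    exact tchIm_edge (hemb φ hφ) hQK heφ

/-- `tchIm` has as many edges as `tch`. -/
lemma tchIm_card {φ : α → V} (hφ : IsEmb F H φ) (Q : Finset α) :
    (tchIm F K Q φ).card = (tch F K Q).card := by
  unfold tchIm
  exact Finset.card_image_of_injective _ (Sym2.map.injective hφ.1)

/-- Local form: a proper part `P` of a block. All lifts over a fixed attachment live in a set of at most
`|att P| l ≤ e_P l` edges of `H`. -/
theorem local_union (hG : GoodDensity n q H) (hs : Std n q l lam) {C P : Finset α}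
    (hb : MinBlock F l lam K C) (hP : P ⊆ C) (hPne : P.Nonempty) (hPC : P ≠ C)
    (S : Finset (α → V)) (hemb : ∀ φ ∈ S, IsEmb F H φ)
    (hag : ∀ φ ∈ S, ∀ φ' ∈ S, ∀ x ∈ att F K P, φ x = φ' x) :
    ((S.biUnion (tchIm F K P)).card : ℝ) ≤ ((tch F K P).card : ℝ) * l := by
  have hl : (0 : ℝ) ≤ l := by linarith [hs.l1]
  have hPK : P ⊆ K := hP.trans hb.sub
  rcases S.eq_empty_or_nonempty with rfl | ⟨φ₀, hφ₀⟩
  · simp only [Finset.biUnion_empty, Finset.card_empty, Nat.cast_zero]
    positivity
  have hmain := union_bound hG hs hPK S hemb ((att F K P).image φ₀) ∅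
    (by simp) (by simp)
    (by
      intro φ hφ x hx
      rw [hag φ hφ φ₀ hφ₀ x hx]
      exact Finset.mem_image_of_mem _ hx)
    (by
      intro φ _ Y hY hYne _
      have hne : Y ≠ C := fun h => hPC (Finset.Subset.antisymm hP (h ▸ hY))
      have h := hb.neg Y (hY.trans hP) hYne hne
      unfold sv at h
      linarith)
  simp only [Finset.empty_union, Finset.card_empty, Nat.cast_zero, sub_zero, zero_mul] at hmain
  have h1 : (((att F K P).image φ₀).card : ℝ) ≤ ((tch F K P).card : ℝ) := by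
    exact_mod_cast (Finset.card_image_le.trans (att_card_le hPK))
  have h2 := mul_le_mul_of_nonneg_right h1 hl
  linarith

/-- Top form: lifts overlapping a fixed lift `φ₁` on `C` live in at most `3 m l` edges. -/
theorem top_union (hG : GoodDensity n q H) (hs : Std n q l lam) {C : Finset α}
    (hb : MinBlock F l lam K C) (h2 : 2 ≤ C.card)
    (S : Finset (α → V)) (hemb : ∀ φ ∈ S, IsEmb F H φ)
    (φ₁ : α → V) (hφ₁ : IsEmb F H φ₁)
    (hag : ∀ φ ∈ S, ∀ x ∈ att F K C, φ x = φ₁ x)
    (hover : ∀ φ ∈ S, ∃ x ∈ C, ∃ y ∈ C, φ x = φ₁ y) :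
    ((tchIm F K C φ₁ ∪ S.biUnion (tchIm F K C)).card : ℝ) ≤ 3 * ((tch F K C).card : ℝ) * l := by
  have hl1 : (1 : ℝ) ≤ l := hs.l1
  have hl : (0 : ℝ) ≤ l := by linarith
  have hlam1 : (1 : ℝ) ≤ lam := hs.lam1
  have hCK : C ⊆ K := hb.sub
  set A : Finset V := (att F K C).image φ₁ ∪ C.image φ₁ with hA
  have hmain := union_bound hG hs hCK S hemb A (tchIm F K C φ₁)
    (fun e he => tchIm_edge hφ₁ hCK he)
    (by
      intro e he x hx
      obtain ⟨e', he', rfl⟩ := Finset.mem_image.1 he
      induction e' using Sym2.ind with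
      | _ u v =>
        obtain ⟨h1, hu, hv, huv⟩ := (mem_tch_pair hCK).1 he'
        simp only [Sym2.map_mk, Sym2.mem_iff] at hx
        have key : ∀ a b : α, F.Adj a b → a ∈ K → (a ∈ C ∨ b ∈ C) → φ₁ a ∈ A := by
          intro a b hab ha hor
          by_cases hac : a ∈ C
          · exact Finset.mem_union_right _ (Finset.mem_image_of_mem _ hac)
          · have hbc : b ∈ C := hor.resolve_left hac
            exact Finset.mem_union_left _ (Finset.mem_image_of_mem _
              (mem_att.2 ⟨ha, hac, b, hbc, hab.symm⟩))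
        rcases hx with rfl | rfl
        · exact key u v h1 hu huv
        · exact key v u h1.symm hv huv.symm)
    (by
      intro φ hφ x hx
      rw [hag φ hφ x hx]
      exact Finset.mem_union_left _ (Finset.mem_image_of_mem _ hx))
    (by
      intro φ hφ Y hY hYne hoff
      obtain ⟨x, hx, y, hy, hxy⟩ := hover φ hφ
      have hxY : x ∉ Y := by
        intro hxY
        apply hoff x hxY
        rw [hxy]
        exact Finset.mem_union_right _ (Finset.mem_image_of_mem _ hy)
      have hne : Y ≠ C := fun h => hxY (h ▸ hx)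
      have h := hb.neg Y hY hYne hne
      unfold sv at h
      linarith)
  rw [tchIm_card hφ₁] at hmain
  have hA1 : (A.card : ℝ) ≤ ((att F K C).card : ℝ) + (C.card : ℝ) := by
    have h3 : A.card ≤ (att F K C).card + C.card :=
      (Finset.card_union_le _ _).trans
        (Nat.add_le_add Finset.card_image_le Finset.card_image_le)
    exact_mod_cast h3
  have hatt : ((att F K C).card : ℝ) ≤ ((tch F K C).card : ℝ) := by
    exact_mod_cast att_card_le hCK
  have hval := hb.val_lt h2 hlam1
  have hm1 : (1 : ℝ) ≤ ((tch F K C).card : ℝ) := by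
    obtain ⟨y, hy⟩ := hb.ne
    obtain ⟨z, hz, hyz⟩ := hb.exists_inner h2 hy
    have : 0 < (tch F K C).card :=
      Finset.card_pos.2 ⟨s(y, z), (mem_tch_pair hCK).2 ⟨hyz, hCK hy, hCK hz, Or.inl hy⟩⟩
    exact_mod_cast this
  set m : ℝ := ((tch F K C).card : ℝ) with hm
  have h4 := mul_le_mul_of_nonneg_right hA1 hl
  have h5 := mul_le_mul_of_nonneg_right hatt hl
  have h6 : m ≤ m * l := by nlinarith
  have h7 : l ≤ m * l := by nlinarith
  nlinarith

/-- Global form: all lifts, with `𝓜` a family pairwise disjoint on `C` meeting every lift: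
`|U| ≤ |att| l + |𝓜| m + |𝓜| max(val, 0)`, `val = b l - m lam`. -/
theorem all_union (hG : GoodDensity n q H) (hs : Std n q l lam) {C : Finset α}
    (hb : MinBlock F l lam K C) (h2 : 2 ≤ C.card)
    (S 𝓜 : Finset (α → V)) (hsub : 𝓜 ⊆ S) (hemb : ∀ φ ∈ S, IsEmb F H φ)
    (hag : ∀ φ ∈ S, ∀ φ' ∈ S, ∀ x ∈ K \ C, φ x = φ' x)
    (hdisj : ∀ φ ∈ 𝓜, ∀ φ' ∈ 𝓜, φ ≠ φ' → ∀ x ∈ C, ∀ y ∈ C, φ x ≠ φ' y)
    (hcov : ∀ φ ∈ S, ∃ x ∈ C, ∃ φ' ∈ 𝓜, ∃ y ∈ C, φ x = φ' y) :
    ((S.biUnion (tchIm F K C)).card : ℝ) ≤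
      ((att F K C).card : ℝ) * l + (𝓜.card : ℝ) * ((tch F K C).card : ℝ) +
        (𝓜.card : ℝ) * max ((C.card : ℝ) * l - ((tch F K C).card : ℝ) * lam) 0 := by
  have hl1 : (1 : ℝ) ≤ l := hs.l1
  have hl : (0 : ℝ) ≤ l := by linarith
  have hCK : C ⊆ K := hb.sub
  rcases S.eq_empty_or_nonempty with rfl | ⟨φ₀, hφ₀⟩
  · have h𝓜 : 𝓜 = ∅ := Finset.subset_empty.1 hsub
    subst h𝓜
    simp only [Finset.biUnion_empty, Finset.card_empty, Nat.cast_zero, zero_mul, add_zero]
    positivity
  have hattsub : ∀ x ∈ att F K C, x ∈ K \ C := by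
    intro x hx
    obtain ⟨h3, h4, _⟩ := mem_att.1 hx
    exact Finset.mem_sdiff.2 ⟨h3, h4⟩
  set A : Finset V := (att F K C).image φ₀ ∪ 𝓜.biUnion (fun φ => C.image φ) with hA
  set U₀ : Finset (Sym2 V) := 𝓜.biUnion (tchIm F K C) with hU₀
  have hmain := union_bound hG hs hCK S hemb A U₀
    (by
      intro e he
      obtain ⟨φ, hφ, heφ⟩ := Finset.mem_biUnion.1 he
      exact tchIm_edge (hemb φ (hsub hφ)) hCK heφ)
    (by
      intro e he x hx
      obtain ⟨φ, hφ, heφ⟩ := Finset.mem_biUnion.1 he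
      obtain ⟨e', he', rfl⟩ := Finset.mem_image.1 heφ
      induction e' using Sym2.ind with
      | _ u v =>
        obtain ⟨h1, hu, hv, huv⟩ := (mem_tch_pair hCK).1 he'
        simp only [Sym2.map_mk, Sym2.mem_iff] at hx
        have key : ∀ a b : α, F.Adj a b → a ∈ K → (a ∈ C ∨ b ∈ C) → φ a ∈ A := by
          intro a b hab ha hor
          by_cases hac : a ∈ C
          · exact Finset.mem_union_right _
              (Finset.mem_biUnion.2 ⟨φ, hφ, Finset.mem_image_of_mem _ hac⟩)
          · have hbc : b ∈ C := hor.resolve_left hac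
            have hat : a ∈ att F K C := mem_att.2 ⟨ha, hac, b, hbc, hab.symm⟩
            rw [hag φ (hsub hφ) φ₀ hφ₀ a (hattsub a hat)]
            exact Finset.mem_union_left _ (Finset.mem_image_of_mem _ hat)
        rcases hx with rfl | rfl
        · exact key u v h1 hu huv
        · exact key v u h1.symm hv huv.symm)
    (by
      intro φ hφ x hx
      rw [hag φ hφ φ₀ hφ₀ x (hattsub x hx)]
      exact Finset.mem_union_left _ (Finset.mem_image_of_mem _ hx))
    (by
      intro φ hφ Y hY hYne hoff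
      obtain ⟨x, hx, φ', hφ', y, hy, hxy⟩ := hcov φ hφ
      have hxY : x ∉ Y := by
        intro hxY
        apply hoff x hxY
        rw [hxy]
        exact Finset.mem_union_right _
          (Finset.mem_biUnion.2 ⟨φ', hφ', Finset.mem_image_of_mem _ hy⟩)
      have hne : Y ≠ C := fun h => hxY (h ▸ hx)
      have h := hb.neg Y hY hYne hne
      unfold sv at h
      linarith)
  have hU₀card : U₀.card = 𝓜.card * (tch F K C).card := by
    have h3 : U₀.card = ∑ φ ∈ 𝓜, (tchIm F K C φ).card := by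
      refine Finset.card_biUnion ?_
      intro φ hφ φ' hφ' hne
      change Disjoint (tchIm F K C φ) (tchIm F K C φ')
      rw [Finset.disjoint_left]
      intro e he he'
      obtain ⟨e₁, he₁, rfl⟩ := Finset.mem_image.1 he
      obtain ⟨e₂, he₂, h12⟩ := Finset.mem_image.1 he'
      induction e₁ using Sym2.ind with
      | _ u v =>
        induction e₂ using Sym2.ind with
        | _ u' v' =>
          obtain ⟨h1, hu, hv, huv⟩ := (mem_tch_pair hCK).1 he₁
          obtain ⟨h1', hu', hv', _⟩ := (mem_tch_pair hCK).1 he₂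
          simp only [Sym2.map_mk] at h12
          -- a point of `C` in the first edge
          have key : ∀ a ∈ C, (φ a = φ' u' ∨ φ a = φ' v') → False := by
            intro a ha hor
            have hw : ∃ w, w ∈ K ∧ φ a = φ' w := by
              rcases hor with h | h
              · exact ⟨u', hu', h⟩
              · exact ⟨v', hv', h⟩
            obtain ⟨w, hwK, hw⟩ := hw
            by_cases hwC : w ∈ C
            · exact hdisj φ hφ φ' hφ' hne a ha w hwC hw
            · have hag' := hag φ (hsub hφ) φ' (hsub hφ') w (Finset.mem_sdiff.2 ⟨hwK, hwC⟩)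
              have hinj := (hemb φ (hsub hφ)).1 (hw.trans hag'.symm)
              exact hwC (hinj ▸ ha)
          have h12' := Sym2.eq_iff.1 h12
          rcases huv with ha | ha
          · apply key u ha
            rcases h12' with ⟨h, _⟩ | ⟨_, h⟩
            · exact Or.inl h.symm
            · exact Or.inr h.symm
          · apply key v ha
            rcases h12' with ⟨_, h⟩ | ⟨h, _⟩
            · exact Or.inr h.symm
            · exact Or.inl h.symm
    rw [h3, Finset.sum_congr rfl (fun φ hφ => tchIm_card (hemb φ (hsub hφ)) C)]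
    simp
  have hAcard : (A.card : ℝ) ≤ ((att F K C).card : ℝ) + (𝓜.card : ℝ) * (C.card : ℝ) := by
    have h3 : A.card ≤ (att F K C).card + 𝓜.card * C.card := by
      refine (Finset.card_union_le _ _).trans (Nat.add_le_add Finset.card_image_le ?_)
      refine Finset.card_biUnion_le_card_mul _ _ _ ?_
      intro φ _
      exact Finset.card_image_le
    exact_mod_cast h3
  have hU₀r : (U₀.card : ℝ) = (𝓜.card : ℝ) * ((tch F K C).card : ℝ) := by
    rw [hU₀card]; push_cast; ring
  have hsubU : ((S.biUnion (tchIm F K C)).card : ℝ) ≤ ((U₀ ∪ S.biUnion (tchIm F K C)).card : ℝ) := by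
    exact_mod_cast Finset.card_le_card Finset.subset_union_right
  have h4 := mul_le_mul_of_nonneg_right hAcard hl
  have hmax : (𝓜.card : ℝ) * ((C.card : ℝ) * l - ((tch F K C).card : ℝ) * lam) ≤
      (𝓜.card : ℝ) * max ((C.card : ℝ) * l - ((tch F K C).card : ℝ) * lam) 0 :=
    mul_le_mul_of_nonneg_left (le_max_left _ _) (Nat.cast_nonneg _)
  rw [hU₀r] at hmain
  nlinarith

end Vale.Agent.Lib.P064E
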